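import Mathlib.RingTheory.NonUnitalSubring.Basic
import Mathlib.Algebra.Algebra.NonUnitalSubalgebra
import Mathlib.Tactic

/-!
P133 (helper354): commuting copies, the algebraic part. Two commuting copies of a family of `n + 2`
elements, not all central, give a family of `n + 1` elements, not all central.
-/

namespace Vale.Agent.P133.R2.H354

section

variable {R : Type*}

/-- from `n + 2` elements in the copies `2j`, `2j+1` to `n + 1` elements in the copy `j` -/
def step [Add R] [Mul R] (n : ℕ) (D : ℕ → ℕ → R) : ℕ → ℕ → R := fun j i =>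
  if i < n then D (2 * j) i + D (2 * j + 1) i
  else D (2 * j) n + D (2 * j + 1) n + D (2 * j) (n + 1) * D (2 * j + 1) (n + 1)

/-- the final element -/
def zel [Add R] [Mul R] : ℕ → (ℕ → ℕ → R) → R
  | 0, D => D 0 0
  | n + 1, D => zel n (step n D)

end

theorem map_step {R R' : Type*} [NonUnitalRing R] [NonUnitalRing R'] (φ : R → R')
    (hadd : ∀ x y, φ (x + y) = φ x + φ y) (hmul : ∀ x y, φ (x * y) = φ x * φ y) (n : ℕ)
    (D : ℕ → ℕ → R) (j i : ℕ) : φ (step n D j i) = step n (fun j i => φ (D j i)) j i := by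
  unfold step
  split_ifs
  · rw [hadd]
  · rw [hadd, hadd, hmul]

theorem map_zel {R R' : Type*} [NonUnitalRing R] [NonUnitalRing R'] (φ : R → R')
    (hadd : ∀ x y, φ (x + y) = φ x + φ y) (hmul : ∀ x y, φ (x * y) = φ x * φ y) (n : ℕ) :
    ∀ D : ℕ → ℕ → R, φ (zel n D) = zel n (fun j i => φ (D j i)) := by
  induction n with
  | zero => intro D; rfl
  | succ n ih =>
    intro D
    rw [zel, zel, ih]
    congr 1
    funext j i
    exact map_step φ hadd hmul n D j i

section

variable {B : Type*} [NonUnitalRing B]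

open NonUnitalSubring

/-- elementwise commuting sets generate commuting subrings -/
theorem comm_closure {S T : Set B} (h : ∀ x ∈ S, ∀ y ∈ T, x * y = y * x) {x y : B}
    (hx : x ∈ closure S) (hy : y ∈ closure T) : x * y = y * x := by
  have h1 : ∀ y ∈ T, x * y = y * x := by
    intro y hy
    induction hx using NonUnitalSubring.closure_induction with
    | mem x hx => exact h x hx y hy
    | zero => rw [zero_mul, mul_zero]
    | add a b _ _ ha hb => rw [add_mul, mul_add, ha, hb]
    | neg a _ ha => rw [neg_mul, mul_neg, ha]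
    | mul a b _ _ ha hb => rw [mul_assoc, hb, ← mul_assoc, ha, mul_assoc]
  induction hy using NonUnitalSubring.closure_induction with
  | mem y hy => exact h1 y hy
  | zero => rw [zero_mul, mul_zero]
  | add a b _ _ ha hb => rw [add_mul, mul_add, ha, hb]
  | neg a _ ha => rw [neg_mul, mul_neg, ha]
  | mul a b _ _ ha hb => rw [← mul_assoc, ha, mul_assoc, hb, mul_assoc]

/-- words in two commuting alphabets split -/
theorem split_word {S T : Set B} (h : ∀ x ∈ S, ∀ y ∈ T, x * y = y * x) {w : B}
    (hw : w ∈ Subsemigroup.closure (S ∪ T)) :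
    w ∈ closure S ∨ w ∈ closure T ∨ ∃ u ∈ closure S, ∃ v ∈ closure T, w = u * v := by
  induction hw using Subsemigroup.closure_induction with
  | mem x hx =>
    rcases hx with hx | hx
    · exact Or.inl (subset_closure hx)
    · exact Or.inr (Or.inl (subset_closure hx))
  | mul a b _ _ ha hb =>
    have hc : ∀ {x y : B}, x ∈ closure S → y ∈ closure T → x * y = y * x := fun hx hy =>
      comm_closure h hx hy
    rcases ha with ha | ha | ⟨u, hu, v, hv, rfl⟩
    · rcases hb with hb | hb | ⟨u', hu', v', hv', rfl⟩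
      · exact Or.inl (mul_mem ha hb)
      · exact Or.inr (Or.inr ⟨a, ha, b, hb, rfl⟩)
      · exact Or.inr (Or.inr ⟨a * u', mul_mem ha hu', v', hv', by rw [mul_assoc]⟩)
    · rcases hb with hb | hb | ⟨u', hu', v', hv', rfl⟩
      · exact Or.inr (Or.inr ⟨b, hb, a, ha, (hc hb ha).symm⟩)
      · exact Or.inr (Or.inl (mul_mem ha hb))
      · refine Or.inr (Or.inr ⟨u', hu', a * v', mul_mem ha hv', ?_⟩)
        rw [← mul_assoc, ← hc hu' ha, mul_assoc]
    · rcases hb with hb | hb | ⟨u', hu', v', hv', rfl⟩
      · refine Or.inr (Or.inr ⟨u * b, mul_mem hu hb, v, hv, ?_⟩)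
        rw [mul_assoc, ← hc hb hv, mul_assoc]
      · exact Or.inr (Or.inr ⟨u, hu, v * b, mul_mem hv hb, by rw [mul_assoc]⟩)
      · refine Or.inr (Or.inr ⟨u * u', mul_mem hu hu', v * v', mul_mem hv hv', ?_⟩)
        calc u * v * (u' * v') = u * (v * u') * v' := by simp only [mul_assoc]
          _ = u * (u' * v) * v' := by rw [hc hu' hv]
          _ = u * u' * (v * v') := by simp only [mul_assoc]

/-- independence of commuting subrings in a prime ring generated by them -/
theorem indep {S T : Set B} (h : ∀ x ∈ S, ∀ y ∈ T, x * y = y * x)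
    (hp : ∀ x y : B, (∀ w ∈ Subsemigroup.closure (S ∪ T), x * w * y = 0) → x = 0 ∨ y = 0)
    {x y : B} (hx : ∀ s ∈ closure S, x * s = s * x) (hy : ∀ t ∈ closure T, t * y = y * t)
    (hxy : x * y = 0) : x = 0 ∨ y = 0 := by
  refine hp x y fun w hw => ?_
  rcases split_word h hw with hw | hw | ⟨u, hu, v, hv, rfl⟩
  · rw [hx w hw, mul_assoc, hxy, mul_zero]
  · rw [mul_assoc, hy w hw, ← mul_assoc, hxy, zero_mul]
  · calc x * (u * v) * y = (x * u) * (v * y) := by simp only [mul_assoc]
      _ = (u * x) * (y * v) := by rw [hx u hu, hy v hv]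
      _ = u * (x * y) * v := by simp only [mul_assoc]
      _ = 0 := by rw [hxy, mul_zero, zero_mul]

/-- the data of commuting copies in a prime ring -/
structure Copies (G : ℕ → Set B) (c : B) : Prop where
  comm : ∀ j l, j ≠ l → ∀ x ∈ G j, ∀ y ∈ G l, x * y = y * x
  central : ∀ j, ∀ x ∈ G j, x * c = c * x
  prime : ∀ x y : B, (∀ w ∈ Subsemigroup.closure ((⋃ j, G j) ∪ {c}), x * w * y = 0) →
    x = 0 ∨ y = 0

variable {G : ℕ → Set B} {c : B}

theorem Copies.commute (h : Copies G c) {j l : ℕ} (hjl : j ≠ l) {x y : B}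
    (hx : x ∈ closure (G j)) (hy : y ∈ closure (G l)) : x * y = y * x :=
  comm_closure (h.comm j l hjl) hx hy

theorem Copies.indep (h : Copies G c) {j l : ℕ} (hjl : j ≠ l) {x y : B}
    (hx : x ∈ closure (G j)) (hy : y ∈ closure (G l)) (hxy : x * y = 0) : x = 0 ∨ y = 0 := by
  set S : Set B := (⋃ k, ⋃ (_ : k ≠ j), G k) ∪ {c} with hS
  have hST : ∀ s ∈ S, ∀ t ∈ G j, s * t = t * s := by
    rintro s (hs | hs) t ht
    · obtain ⟨k, hs⟩ := Set.mem_iUnion.1 hs
      obtain ⟨hk, hs⟩ := Set.mem_iUnion.1 hs
      exact h.comm k j hk s hs t ht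
    · rw [Set.mem_singleton_iff.1 hs]
      exact (h.central j t ht).symm
  refine H354.indep (S := S) (T := G j) hST (fun x y hw => h.prime x y fun w hw' => hw w ?_)
    (fun s hs => (comm_closure hST hs hx).symm) (fun t ht => h.commute hjl ht hy) hxy
  refine Subsemigroup.closure_mono ?_ hw'
  rintro s (hs | hs)
  · obtain ⟨k, hs⟩ := Set.mem_iUnion.1 hs
    by_cases hk : k = j
    · subst hk
      exact Or.inr hs
    · exact Or.inl (Or.inl (Set.mem_iUnion.2 ⟨k, Set.mem_iUnion.2 ⟨hk, hs⟩⟩))
  · exact Or.inl (Or.inr hs)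

theorem Copies.double (h : Copies G c) : Copies (fun j => G (2 * j) ∪ G (2 * j + 1)) c where
  comm := by
    rintro j l hjl x (hx | hx) y (hy | hy)
    · exact h.comm _ _ (by omega) x hx y hy
    · exact h.comm _ _ (by omega) x hx y hy
    · exact h.comm _ _ (by omega) x hx y hy
    · exact h.comm _ _ (by omega) x hx y hy
  central := by
    rintro j x (hx | hx)
    · exact h.central _ x hx
    · exact h.central _ x hx
  prime := by
    intro x y hw
    refine h.prime x y fun w hw' => hw w ?_
    refine Subsemigroup.closure_mono ?_ hw'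
    rintro s (hs | hs)
    · obtain ⟨k, hs⟩ := Set.mem_iUnion.1 hs
      refine Or.inl (Set.mem_iUnion.2 ⟨k / 2, ?_⟩)
      rcases Nat.even_or_odd' k with ⟨m, rfl | rfl⟩
      · left
        have : 2 * (2 * m / 2) = 2 * m := by omega
        rw [this]
        exact hs
      · right
        have : 2 * ((2 * m + 1) / 2) + 1 = 2 * m + 1 := by omega
        rw [this]
        exact hs
    · exact Or.inr hs

/-- the main algebraic step -/
theorem Copies.noncentral : ∀ (n : ℕ) {G : ℕ → Set B} {c : B} (_ : Copies G c) {D : ℕ → ℕ → B}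
    (_ : ∀ j i, D j i ∈ closure (G j))
    (_ : ∀ j, j < 2 ^ n → ∃ i ≤ n, ∃ b ∈ closure (G j), b * D j i ≠ D j i * b),
    ∃ b, b * zel n D ≠ zel n D * b := by
  intro n
  induction n with
  | zero =>
    intro G c _ D _ hg
    obtain ⟨i, hi, b, _, hb⟩ := hg 0 (by norm_num)
    obtain rfl : i = 0 := by omega
    exact ⟨b, hb⟩
  | succ n ih =>
    intro G c h D hD hg
    rw [zel]
    have hm1 : ∀ {j : ℕ} {x : B}, x ∈ closure (G (2 * j)) →
        x ∈ closure (G (2 * j) ∪ G (2 * j + 1)) := fun hx =>
      closure_mono Set.subset_union_left hx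
    have hm2 : ∀ {j : ℕ} {x : B}, x ∈ closure (G (2 * j + 1)) →
        x ∈ closure (G (2 * j) ∪ G (2 * j + 1)) := fun hx =>
      closure_mono Set.subset_union_right hx
    refine ih h.double (D := step n D) (fun j i => ?_) (fun j hj => ?_)
    · unfold step
      split_ifs
      · exact add_mem (hm1 (hD _ _)) (hm2 (hD _ _))
      · exact add_mem (add_mem (hm1 (hD _ _)) (hm2 (hD _ _))) (mul_mem (hm1 (hD _ _)) (hm2 (hD _ _)))
    · have hpow : 2 ^ (n + 1) = 2 * 2 ^ n := by rw [pow_succ, mul_comm]
      obtain ⟨i₀, hi₀, b₀, hb₀, h₀⟩ := hg (2 * j) (by omega)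
      obtain ⟨i₁, hi₁, b₁, hb₁, h₁⟩ := hg (2 * j + 1) (by omega)
      have hne : 2 * j ≠ 2 * j + 1 := by omega
      have c1 : ∀ {x y : B}, x ∈ closure (G (2 * j)) → y ∈ closure (G (2 * j + 1)) →
          x * y = y * x := fun hx hy => h.commute hne hx hy
      by_cases hlt0 : i₀ < n
      · refine ⟨i₀, by omega, b₀, hm1 hb₀, fun he => h₀ ?_⟩
        simp only [step, if_pos hlt0] at he
        rw [mul_add, add_mul, c1 hb₀ (hD _ _)] at he
        exact add_right_cancel he
      by_cases hlt1 : i₁ < n
      · refine ⟨i₁, by omega, b₁, hm2 hb₁, fun he => h₁ ?_⟩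
        simp only [step, if_pos hlt1] at he
        rw [mul_add, add_mul, ← c1 (hD _ _) hb₁] at he
        exact add_left_cancel he
      -- both witnesses are among the last two elements
      refine ⟨n, le_rfl, ?_⟩
      by_contra hcon
      push Not at hcon
      set X := D (2 * j) n
      set X' := D (2 * j + 1) n
      set Y := D (2 * j) (n + 1)
      set Y' := D (2 * j + 1) (n + 1)
      have hX : X ∈ closure (G (2 * j)) := hD _ _
      have hY : Y ∈ closure (G (2 * j)) := hD _ _
      have hX' : X' ∈ closure (G (2 * j + 1)) := hD _ _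
      have hY' : Y' ∈ closure (G (2 * j + 1)) := hD _ _
      have hz : step n D j n = X + X' + Y * Y' := by
        simp only [step, lt_irrefl, if_false]; rfl
      have e1 : ∀ b ∈ closure (G (2 * j)), (b * X - X * b) + (b * Y - Y * b) * Y' = 0 := by
        intro b hb
        have h2 := hcon b (hm1 hb)
        rw [hz] at h2
        have h3 : b * X' = X' * b := c1 hb hX'
        have h4 : b * Y' = Y' * b := c1 hb hY'
        have h5 : (b * X - X * b) + (b * Y - Y * b) * Y' =
            (b * (X + X' + Y * Y') - (X + X' + Y * Y') * b) - (b * X' - X' * b) +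
              Y * (Y' * b - b * Y') := by noncomm_ring
        rw [h5, h2, h3, h4]
        simp only [sub_self, mul_zero, zero_mul, add_zero, zero_add, sub_zero]
      have e2 : ∀ b ∈ closure (G (2 * j)), ∀ b' ∈ closure (G (2 * j + 1)),
          (b * Y - Y * b) * (b' * Y' - Y' * b') = 0 := by
        intro b hb b' hb'
        have h2 := e1 b hb
        have h3 : b' * (b * X - X * b) = (b * X - X * b) * b' :=
          (c1 (sub_mem (mul_mem hb hX) (mul_mem hX hb)) hb').symm
        have h4 : b' * (b * Y - Y * b) = (b * Y - Y * b) * b' :=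
          (c1 (sub_mem (mul_mem hb hY) (mul_mem hY hb)) hb').symm
        have h5 : (b * Y - Y * b) * (b' * Y' - Y' * b') =
            b' * ((b * X - X * b) + (b * Y - Y * b) * Y') -
              ((b * X - X * b) + (b * Y - Y * b) * Y') * b' -
              (b' * (b * X - X * b) - (b * X - X * b) * b') -
              (b' * (b * Y - Y * b) - (b * Y - Y * b) * b') * Y' := by noncomm_ring
        rw [h5, h2, h3, h4]
        simp only [sub_self, mul_zero, zero_mul, add_zero, zero_add, sub_zero]
      have e3 : (∀ b ∈ closure (G (2 * j)), b * Y - Y * b = 0) ∨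
          ∀ b' ∈ closure (G (2 * j + 1)), b' * Y' - Y' * b' = 0 := by
        by_contra hno
        push Not at hno
        obtain ⟨⟨b, hb, hb0⟩, b', hb', hb0'⟩ := hno
        rcases h.indep hne (sub_mem (mul_mem hb hY) (mul_mem hY hb))
          (sub_mem (mul_mem hb' hY') (mul_mem hY' hb')) (e2 b hb b' hb') with h6 | h6
        · exact hb0 h6
        · exact hb0' h6
      rcases e3 with e3 | e3
      · have e4 : ∀ b ∈ closure (G (2 * j)), b * X - X * b = 0 := by
          intro b hb
          have := e1 b hb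
          rwa [e3 b hb, zero_mul, add_zero] at this
        have hi : i₀ = n ∨ i₀ = n + 1 := by omega
        rcases hi with rfl | rfl
        · exact h₀ (sub_eq_zero.1 (e4 b₀ hb₀))
        · exact h₀ (sub_eq_zero.1 (e3 b₀ hb₀))
      · have e4 : ∀ b' ∈ closure (G (2 * j + 1)), b' * X' - X' * b' = 0 := by
          intro b' hb'
          have h2 := hcon b' (hm2 hb')
          rw [hz] at h2
          have h3 : b' * X = X * b' := (c1 hX hb').symm
          have h4 : b' * Y = Y * b' := (c1 hY hb').symm
          have h5 : b' * X' - X' * b' =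
              (b' * (X + X' + Y * Y') - (X + X' + Y * Y') * b') - (b' * X - X * b') -
                (b' * Y - Y * b') * Y' - Y * (b' * Y' - Y' * b') := by noncomm_ring
          rw [h5, h2, h3, h4, e3 b' hb']
          simp only [sub_self, mul_zero, zero_mul, add_zero, zero_add, sub_zero]
        have hi : i₁ = n ∨ i₁ = n + 1 := by omega
        rcases hi with rfl | rfl
        · exact h₁ (sub_eq_zero.1 (e4 b₁ hb₁))
        · exact h₁ (sub_eq_zero.1 (e3 b₁ hb₁))

end

end Vale.Agent.P133.R2.H354
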