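import Mathlib.Analysis.CStarAlgebra.Classes

/-!
P133 (helper354): C*-algebras whose central sequence algebra has no characters.
-/

namespace Vale.Agent.P133.R2.H354

universe u

/-- There are `m` and `C` such that for every finite set `F` and every `ε > 0` there are `4 m`
elements `x i, p i, q i, y i` of norm at most `C`, commuting up to `ε` with the elements of `F`,
such that `∑ x i [p i, q i] y i` acts up to `ε` as a unit on `F`. For a separable C*-algebra `A`
this says that Kirchberg's central sequence algebra `F(A) = (A_ω ∩ A') / Ann(A)` has no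
characters. -/
def NoCentralChar (A : Type u) [NonUnitalCStarAlgebra A] : Prop :=
  ∃ (m : ℕ) (C : ℝ), ∀ (F : Finset A) (ε : ℝ), 0 < ε → ∃ x p q y : Fin m → A,
    (∀ i, ‖x i‖ ≤ C ∧ ‖p i‖ ≤ C ∧ ‖q i‖ ≤ C ∧ ‖y i‖ ≤ C) ∧
    (∀ f ∈ F, ∀ i, ‖x i * f - f * x i‖ ≤ ε ∧ ‖p i * f - f * p i‖ ≤ ε ∧
      ‖q i * f - f * q i‖ ≤ ε ∧ ‖y i * f - f * y i‖ ≤ ε) ∧
    ∀ f ∈ F, ‖(∑ i, x i * (p i * q i - q i * p i) * y i) * f - f‖ ≤ ε

end Vale.Agent.P133.R2.H354
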