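import Vale.Agent.P133.H832.Diag

/-!
P133 (helper354): perturbation by almost orthogonal families (part of the density of certificates
of helper307).
-/

open scoped ComplexOrder

namespace Vale.Agent.P133.R2.H354

open Vale.Agent.P133.H832 Vale.Agent.P133.Statement

universe u

variable {D : Type u} [NonUnitalCStarAlgebra D]

theorem diagF (hD : Diag D) {ι : Type} [Fintype ι] [DecidableEq ι] (a : ι → D) {ε : ℝ}
    (hε : 0 < ε) : ∃ d : ι → D, (∀ i, ‖d i‖ ≤ 1) ∧
      ∀ i j, ‖star (a i * d i) * (a j * d j) - (if i = j then star (a i) * a i else 0)‖ < ε := by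
  obtain ⟨d, h1, h2⟩ := hD (Fintype.card ι) (a ∘ (Fintype.equivFin ι).symm) ε hε
  refine ⟨d ∘ Fintype.equivFin ι, fun i => h1 _, fun i j => ?_⟩
  have := h2 (Fintype.equivFin ι i) (Fintype.equivFin ι j)
  simpa using this

variable [PartialOrder D] [StarOrderedRing D]

theorem norm_three {x p : D} (h1 : -p ≤ x) (h2 : x ≤ p) : ‖x‖ ≤ 3 * ‖p‖ := by
  have h3 : 0 ≤ x + p := neg_le_iff_add_nonneg.1 h1
  have h4 : x + p ≤ p + p := add_le_add_left h2 p
  have h5 := CStarAlgebra.norm_le_norm_of_nonneg_of_le h3 h4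
  have h6 : ‖x‖ ≤ ‖x + p‖ + ‖p‖ := by
    calc ‖x‖ = ‖(x + p) - p‖ := by rw [add_sub_cancel_right]
      _ ≤ _ := norm_sub_le _ _
  have := norm_add_le p p
  linarith

section

variable {ι : Type} [Fintype ι] [DecidableEq ι] {V C : ι → D} {ε : ℝ}

/-- the sum of the `V V*` is almost a contraction -/
theorem norm_P (hV1 : ∀ i, ‖V i‖ ≤ 1) (hε0 : 0 ≤ ε)
    (hV : ∀ i j, i ≠ j → ‖star (V i) * V j‖ ≤ ε) :
    ‖∑ i, V i * star (V i)‖ ^ 2 ≤ ‖∑ i, V i * star (V i)‖ + (Fintype.card ι : ℝ) ^ 2 * ε := by
  set P := ∑ i, V i * star (V i) with hP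
  have hPs : IsSelfAdjoint P := by
    rw [hP]
    exact isSelfAdjoint_sum _ fun i _ => IsSelfAdjoint.mul_star_self _
  have hP0 : 0 ≤ P := Finset.sum_nonneg fun i _ => mul_star_self_nonneg _
  have h1 : ‖P‖ ^ 2 = ‖P * P‖ := (hPs.norm_mul_self).symm
  set T := ∑ i, V i * (star (V i) * V i) * star (V i) with hT
  have hTi : ∀ i, 0 ≤ V i * (star (V i) * V i) * star (V i) ∧
      V i * (star (V i) * V i) * star (V i) ≤ V i * star (V i) := by
    intro i
    constructor
    · have := star_left_conjugate_nonneg (star_mul_self_nonneg (V i)) (star (V i))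
      simpa using this
    · have h := CStarAlgebra.star_left_conjugate_le_norm_smul (a := star (V i))
        (b := star (V i) * V i) (IsSelfAdjoint.star_mul_self _)
      rw [star_star] at h
      refine h.trans ?_
      have h2 : ‖star (V i) * V i‖ ≤ 1 := by
        rw [CStarRing.norm_star_mul_self]
        nlinarith [hV1 i, norm_nonneg (V i)]
      calc ‖star (V i) * V i‖ • (V i * star (V i)) ≤ (1 : ℝ) • (V i * star (V i)) :=
            smul_le_smul_of_nonneg_right h2 (mul_star_self_nonneg _)
        _ = _ := one_smul _ _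
  have hTn : ‖T‖ ≤ ‖P‖ := CStarAlgebra.norm_le_norm_of_nonneg_of_le
    (Finset.sum_nonneg fun i _ => (hTi i).1) (Finset.sum_le_sum fun i _ => (hTi i).2)
  have h2 : P * P - T = ∑ i, ∑ j, (if i = j then 0 else V i * (star (V i) * V j) * star (V j)) := by
    rw [hP, hT, Finset.sum_mul_sum, ← Finset.sum_sub_distrib]
    refine Finset.sum_congr rfl fun i _ => ?_
    have : ∀ j, (if i = j then 0 else V i * (star (V i) * V j) * star (V j)) =
        V i * star (V i) * (V j * star (V j)) -
          (if i = j then V i * (star (V i) * V i) * star (V i) else 0) := by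
      intro j
      by_cases h : i = j
      · subst h; simp [mul_assoc]
      · simp [h, mul_assoc]
    rw [Finset.sum_congr rfl fun j _ => this j, Finset.sum_sub_distrib]
    simp
  have h3 : ‖P * P - T‖ ≤ (Fintype.card ι : ℝ) ^ 2 * ε := by
    rw [h2]
    have hij : ∀ i j, ‖(if i = j then 0 else V i * (star (V i) * V j) * star (V j))‖ ≤ ε := by
      intro i j
      by_cases h : i = j
      · simp [h, hε0]
      · rw [if_neg h]
        calc ‖V i * (star (V i) * V j) * star (V j)‖
            ≤ ‖V i‖ * ‖star (V i) * V j‖ * ‖star (V j)‖ :=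
              (norm_mul_le _ _).trans (mul_le_mul_of_nonneg_right (norm_mul_le _ _)
                (norm_nonneg _))
          _ ≤ 1 * ε * 1 := by
              rw [norm_star]
              gcongr
              · exact hV1 i
              · exact hV i j h
              · exact hV1 j
          _ = ε := by ring
    calc ‖∑ i, ∑ j, (if i = j then 0 else V i * (star (V i) * V j) * star (V j))‖
        ≤ ∑ i : ι, ∑ j : ι, ε := (norm_sum_le _ _).trans (Finset.sum_le_sum fun i _ =>
          (norm_sum_le _ _).trans (Finset.sum_le_sum fun j _ => hij i j))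
      _ = _ := by simp; ring
  calc ‖P‖ ^ 2 = ‖P * P‖ := h1
    _ = ‖T + (P * P - T)‖ := by rw [add_sub_cancel]
    _ ≤ ‖T‖ + ‖P * P - T‖ := norm_add_le _ _
    _ ≤ _ := add_le_add hTn h3

/-- the first estimate: the sum of the `± (V* h V - s C)` -/
theorem est_A {σ s : ι → ℝ} (hσ : ∀ i, σ i = 1 ∨ σ i = -1) {h : D} {η : ℝ}
    (hη : ∀ i, -(η • (star (V i) * V i)) ≤ star (V i) * h * V i - s i • (star (V i) * V i) ∧
      star (V i) * h * V i - s i • (star (V i) * V i) ≤ η • (star (V i) * V i))
    (hη0 : 0 ≤ η) {K : ℝ} (hC : ‖∑ i, C i‖ ≤ K) (hε0 : 0 ≤ ε)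
    (hV : ∀ i, ‖star (V i) * V i - C i‖ ≤ ε) :
    ‖∑ i, σ i • (star (V i) * h * V i - s i • C i)‖ ≤
      3 * η * (K + Fintype.card ι * ε) + (∑ i, |s i|) * ε := by
  have h1 : ‖∑ i, σ i • (star (V i) * h * V i - s i • (star (V i) * V i))‖ ≤
      3 * η * (K + Fintype.card ι * ε) := by
    have h2 := norm_three (x := ∑ i, σ i • (star (V i) * h * V i - s i • (star (V i) * V i)))
      (p := ∑ i, η • (star (V i) * V i)) ?_ ?_
    · refine h2.trans ?_
      rw [← Finset.smul_sum, norm_smul, Real.norm_of_nonneg hη0, mul_assoc]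
      refine mul_le_mul_of_nonneg_left (mul_le_mul_of_nonneg_left ?_ hη0) (by norm_num)
      have h3 : ∑ i, star (V i) * V i = ∑ i, C i + ∑ i, (star (V i) * V i - C i) := by
        rw [← Finset.sum_add_distrib]; simp
      rw [h3]
      refine (norm_add_le _ _).trans (add_le_add hC ((norm_sum_le _ _).trans ?_))
      calc ∑ i, ‖star (V i) * V i - C i‖ ≤ ∑ _i : ι, ε := Finset.sum_le_sum fun i _ => hV i
        _ = _ := by simp
    · rw [← Finset.sum_neg_distrib]
      refine Finset.sum_le_sum fun i _ => ?_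
      rcases hσ i with h | h
      · rw [h, one_smul]; exact (hη i).1
      · rw [h, neg_one_smul, neg_le_neg_iff]; exact (hη i).2
    · refine Finset.sum_le_sum fun i _ => ?_
      rcases hσ i with h | h
      · rw [h, one_smul]; exact (hη i).2
      · rw [h, neg_one_smul]; exact neg_le.1 (hη i).1
  have h4 : ∑ i, σ i • (star (V i) * h * V i - s i • C i) =
      ∑ i, σ i • (star (V i) * h * V i - s i • (star (V i) * V i)) +
        ∑ i, (σ i * s i) • (star (V i) * V i - C i) := by
    rw [← Finset.sum_add_distrib]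
    refine Finset.sum_congr rfl fun i _ => ?_
    rw [mul_smul, ← smul_add]
    congr 1
    rw [smul_sub]; abel
  rw [h4]
  refine (norm_add_le _ _).trans (add_le_add h1 ((norm_sum_le _ _).trans ?_))
  rw [Finset.sum_mul]
  refine Finset.sum_le_sum fun i _ => ?_
  rw [norm_smul, Real.norm_eq_abs, abs_mul]
  have : |σ i| = 1 := by rcases hσ i with h | h <;> rw [h] <;> simp
  rw [this, one_mul]
  exact mul_le_mul_of_nonneg_left (hV i) (abs_nonneg _)

/-- the second estimate: the sum of the `± V* (∑ ± V V*) V - C C` -/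
theorem est_B {σ : ι → ℝ} (hσ : ∀ i, σ i = 1 ∨ σ i = -1) (hV1 : ∀ i, ‖V i‖ ≤ 1)
    (hC1 : ∀ i, ‖C i‖ ≤ 1) (hε0 : 0 ≤ ε) (hV : ∀ i, ‖star (V i) * V i - C i‖ ≤ ε)
    (hV' : ∀ i j, i ≠ j → ‖star (V i) * V j‖ ≤ ε) :
    ‖∑ i, (σ i • (star (V i) * (∑ j, σ j • (V j * star (V j))) * V i) - C i * C i)‖ ≤
      2 * (Fintype.card ι : ℝ) ^ 2 * ε := by
  have hVV : ∀ i j, ‖star (V i) * V j‖ ≤ 1 := fun i j =>
    (norm_mul_le _ _).trans (by
      rw [norm_star]
      exact mul_le_one₀ (hV1 i) (norm_nonneg _) (hV1 j))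
  have h1 : ∀ i, σ i • (star (V i) * (∑ j, σ j • (V j * star (V j))) * V i) - C i * C i =
      ∑ j, ((σ i * σ j) • (star (V i) * V j * (star (V j) * V i)) -
        (if i = j then C i * C i else 0)) := by
    intro i
    rw [Finset.sum_sub_distrib, Finset.mul_sum, Finset.sum_mul, Finset.smul_sum]
    congr 1
    · refine Finset.sum_congr rfl fun j _ => ?_
      rw [mul_smul, mul_smul_comm, smul_mul_assoc]
      simp only [mul_assoc]
    · simp
  have h2 : ∀ i j, ‖(σ i * σ j) • (star (V i) * V j * (star (V j) * V i)) -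
        (if i = j then C i * C i else 0)‖ ≤ 2 * ε := by
    intro i j
    by_cases h : i = j
    · subst h
      have : σ i * σ i = 1 := by rcases hσ i with h | h <;> rw [h] <;> norm_num
      rw [this, one_smul, if_pos rfl]
      have h3 : star (V i) * V i * (star (V i) * V i) - C i * C i =
          (star (V i) * V i - C i) * (star (V i) * V i) +
            C i * (star (V i) * V i - C i) := by
        rw [sub_mul, mul_sub]; abel
      rw [h3]
      calc _ ≤ ‖star (V i) * V i - C i‖ * ‖star (V i) * V i‖ +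
            ‖C i‖ * ‖star (V i) * V i - C i‖ :=
            (norm_add_le _ _).trans (add_le_add (norm_mul_le _ _) (norm_mul_le _ _))
        _ ≤ ε * 1 + 1 * ε := by
            gcongr
            · exact hV i
            · exact hVV i i
            · exact hC1 i
            · exact hV i
        _ = 2 * ε := by ring
    · rw [if_neg h, sub_zero, norm_smul]
      have h4 : ‖σ i * σ j‖ = 1 := by
        rcases hσ i with h | h <;> rcases hσ j with h' | h' <;> rw [h, h'] <;> norm_num
      rw [h4, one_mul]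
      calc _ ≤ ‖star (V i) * V j‖ * ‖star (V j) * V i‖ := norm_mul_le _ _
        _ ≤ ε * 1 := by
            gcongr
            · exact hV' i j h
            · exact hVV j i
        _ ≤ 2 * ε := by linarith
  calc _ = ‖∑ i, ∑ j, ((σ i * σ j) • (star (V i) * V j * (star (V j) * V i)) -
        (if i = j then C i * C i else 0))‖ := by rw [Finset.sum_congr rfl fun i _ => h1 i]
    _ ≤ ∑ i : ι, ∑ j : ι, 2 * ε := (norm_sum_le _ _).trans (Finset.sum_le_sum fun i _ =>
          (norm_sum_le _ _).trans (Finset.sum_le_sum fun j _ => h2 i j))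
    _ = _ := by simp; ring

end

end Vale.Agent.P133.R2.H354
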