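import Vale.Agent.P133.R2.H307.Spec2
import Mathlib.Analysis.CStarAlgebra.ContinuousFunctionalCalculus.Basic

/-!
P133 (helper354): approximation of an element of `herS a` by one with a local unit.
-/

open scoped ComplexOrder

namespace Vale.Agent.P133.R2.H354

open Vale.Agent.P133.R2.H307 Vale.Agent.P133.R2.H28

universe u

/-- the function of `ramp` -/
noncomputable def rf (τ s : ℝ) : ℝ := min (max (2 * s / τ - 1) 0) 1

theorem rf_cont (τ : ℝ) : Continuous (rf τ) := by unfold rf; fun_prop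

theorem rf_nonneg (τ s : ℝ) : 0 ≤ rf τ s := le_min (le_max_right _ _) zero_le_one

theorem rf_le_one (τ s : ℝ) : rf τ s ≤ 1 := min_le_right _ _

theorem rf_one {τ s : ℝ} (hτ : 0 < τ) (h : τ ≤ s) : rf τ s = 1 := by
  have : 1 ≤ 2 * s / τ - 1 := by
    have : 2 ≤ 2 * s / τ := by rw [le_div_iff₀ hτ]; linarith
    linarith
  exact min_eq_right (this.trans (le_max_left _ _))

theorem rf_zero {τ s : ℝ} (hτ : 0 < τ) (h : s ≤ τ / 2) : rf τ s = 0 := by
  have : 2 * s / τ - 1 ≤ 0 := by
    have : 2 * s / τ ≤ 1 := by rw [div_le_iff₀ hτ]; linarith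
    linarith
  unfold rf
  rw [max_eq_right this]
  simp

theorem rf_at_zero {τ : ℝ} (hτ : 0 < τ) : rf τ 0 = 0 := rf_zero hτ (by linarith)

variable {D : Type u} [NonUnitalCStarAlgebra D] [PartialOrder D] [StarOrderedRing D]

theorem step {a : D} (ha : 0 ≤ a) {δ : ℝ} (hδ : 0 < δ) {d : D} (hd : d ∈ herS a) {ρ : ℝ}
    (hρ : 0 < ρ) : ∃ d0 e e2 c2 : D, d0 ∈ herS a ∧ ‖d0 - d‖ ≤ ρ ∧ 0 ≤ e ∧ ‖e‖ ≤ 1 ∧
      e * d0 = d0 ∧ d0 * e = d0 ∧ ramp δ a ≤ e * e ∧ e2 * e = e ∧ IsSelfAdjoint e2 ∧
      e2 = a * c2 := by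
  have hsa : IsSelfAdjoint a := IsSelfAdjoint.of_nonneg ha
  obtain ⟨hd1, hd2⟩ := Submodule.mem_inf.1 hd
  have hds : IsSelfAdjoint d := hd2
  have hd3 : d ∈ closure ((LinearMap.range ((LinearMap.mulLeft ℝ a).comp
    (LinearMap.mulRight ℝ a)) : Submodule ℝ D) : Set D) := hd1
  obtain ⟨_, ⟨y, rfl⟩, hy⟩ := Metric.mem_closure_iff.1 hd3 (ρ / 2) (by positivity)
  simp only [LinearMap.comp_apply, LinearMap.mulRight_apply, LinearMap.mulLeft_apply] at hy
  rw [dist_eq_norm] at hy
  set y' : D := (1 / 2 : ℝ) • (y + star y) with hy'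
  have hy's : star y' = y' := by
    rw [hy', star_smul, star_add, star_star, star_trivial, add_comm]
  have h1 : ‖a * y' * a - d‖ ≤ ρ / 2 := by
    have e1 : a * y' * a - d = (1 / 2 : ℝ) • (-(d - a * (y * a)) - star (d - a * (y * a))) := by
      rw [star_sub, star_mul, star_mul, hsa.star_eq, hds.star_eq, hy', mul_smul_comm,
        smul_mul_assoc, mul_add, add_mul]
      have : d = (1 / 2 : ℝ) • (d + d) := by rw [← two_smul ℝ d, smul_smul]; norm_num
      nth_rewrite 1 [this]
      rw [← smul_sub]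
      congr 1
      simp only [mul_assoc]
      abel
    rw [e1, norm_smul]
    have e2 := norm_sub_le (-(d - a * (y * a))) (star (d - a * (y * a)))
    rw [norm_neg, norm_star] at e2
    rw [Real.norm_of_nonneg (by norm_num)]
    linarith
  set τ : ℝ := min (δ / 2) (ρ / (4 * (‖y'‖ * ‖a‖ + 1))) with hτ
  have hτ0 : 0 < τ := lt_min (by positivity) (by positivity)
  have hτδ : τ ≤ δ / 2 := min_le_left _ _
  have hτρ : τ * (4 * (‖y'‖ * ‖a‖ + 1)) ≤ ρ := by
    rw [← le_div_iff₀ (by positivity)]; exact min_le_right _ _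
  set c : D := cut a τ with hc
  have hcut_cont : Continuous fun t : ℝ => max (t - τ) 0 := by fun_prop
  have hca : ‖c - a‖ ≤ τ := by
    have e1 : c - a = cfcₙ (fun t : ℝ => max (t - τ) 0 - t) a := by
      rw [cfcₙ_sub (fun t : ℝ => max (t - τ) 0) (fun t : ℝ => t) a hcut_cont.continuousOn
        (by simp [hτ0.le]) continuous_id.continuousOn rfl]
      congr 1
      exact (cfcₙ_id' ℝ a).symm
    rw [e1]
    refine norm_cfcₙ_le fun t ht => ?_
    have ht0 : 0 ≤ t := quasispectrum_nonneg_of_nonneg a ha t ht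
    rw [Real.norm_eq_abs, abs_le]
    rcases le_total t τ with h | h
    · rw [max_eq_right (by linarith)]; constructor <;> linarith
    · rw [max_eq_left (by linarith)]; constructor <;> linarith
  have hcn : ‖c‖ ≤ ‖a‖ := by
    rw [hc]
    refine norm_cfcₙ_le fun t ht => ?_
    have ht0 : 0 ≤ t := quasispectrum_nonneg_of_nonneg a ha t ht
    have ht1 : t ≤ ‖a‖ := by
      have := NonUnitalIsometricContinuousFunctionalCalculus.norm_quasispectrum_le (𝕜 := ℝ) a ht hsa
      exact (le_abs_self t).trans this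
    rw [Real.norm_eq_abs, abs_of_nonneg (le_max_right _ _)]
    exact max_le (by linarith) (norm_nonneg _)
  have hcs : star c = c := by
    have : IsSelfAdjoint c := cfcₙ_predicate _ a
    exact this.star_eq
  have hmax_cont : Continuous fun t : ℝ => max (t - τ) 0 / max t τ :=
    hcut_cont.div (by fun_prop) fun t => (lt_of_lt_of_le hτ0 (le_max_right t τ)).ne'
  set k3 : D := cfcₙ (fun t : ℝ => max (t - τ) 0 / max t τ) a with hk3
  have hk3' : c = a * k3 ∧ c = k3 * a := by
    have e0 : c = cfcₙ (fun t : ℝ => t * (max (t - τ) 0 / max t τ)) a := by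
      rw [hc]
      refine cfcₙ_congr fun t ht => ?_
      rcases le_total t τ with h | h
      · rw [max_eq_right (by linarith)]; simp
      · rw [max_eq_left (by linarith : 0 ≤ t - τ), max_eq_left h, mul_div_cancel₀]
        linarith
    have e1 : cfcₙ (fun t : ℝ => t * (max (t - τ) 0 / max t τ)) a = a * k3 := by
      rw [cfcₙ_mul (fun t : ℝ => t) (fun t : ℝ => max (t - τ) 0 / max t τ) a
        continuous_id.continuousOn rfl hmax_cont.continuousOn (by simp [hτ0.le])]
      congr 1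
      exact cfcₙ_id' ℝ a
    have e2 : cfcₙ (fun t : ℝ => (max (t - τ) 0 / max t τ) * t) a = k3 * a := by
      rw [cfcₙ_mul (fun t : ℝ => max (t - τ) 0 / max t τ) (fun t : ℝ => t) a
        hmax_cont.continuousOn (by simp [hτ0.le]) continuous_id.continuousOn rfl]
      congr 1
      exact cfcₙ_id' ℝ a
    refine ⟨e0.trans e1, e0.trans ?_⟩
    rw [← e2]
    exact cfcₙ_congr fun t _ => mul_comm _ _
  have hrc : ∀ t : ℝ, rf τ t * max (t - τ) 0 = max (t - τ) 0 := by
    intro t
    rcases le_total t τ with h | h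
    · rw [max_eq_right (by linarith)]; simp
    · rw [rf_one hτ0 h, one_mul]
  set e : D := cfcₙ (rf τ) a with he
  set e2 : D := cfcₙ (rf (τ / 2)) a with he2
  have hτ2 : 0 < τ / 2 := by positivity
  have hec : e * c = c := by
    rw [he, hc, cut, ← cfcₙ_mul (rf τ) (fun t : ℝ => max (t - τ) 0) a (rf_cont τ).continuousOn
      (rf_at_zero hτ0) hcut_cont.continuousOn (by simp [hτ0.le])]
    exact cfcₙ_congr fun t _ => hrc t
  have hes : star e = e := by
    have : IsSelfAdjoint e := cfcₙ_predicate _ a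
    exact this.star_eq
  have hce : c * e = c := by
    have := congrArg star hec
    rwa [star_mul, hcs, hes] at this
  have hr2 : ∀ t : ℝ, rf (τ / 2) t * rf τ t = rf τ t := by
    intro t
    rcases le_total t (τ / 2) with h | h
    · rw [rf_zero hτ0 h]; simp
    · rw [rf_one hτ2 h, one_mul]
  have hc2c : Continuous fun t : ℝ => rf (τ / 2) t / max t (τ / 4) :=
    (rf_cont _).div (by fun_prop) fun t =>
      (lt_of_lt_of_le (by positivity : 0 < τ / 4) (le_max_right t _)).ne'
  refine ⟨c * y' * c, e, e2, cfcₙ (fun t : ℝ => rf (τ / 2) t / max t (τ / 4)) a, ?_, ?_, ?_, ?_,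
    ?_, ?_, ?_, ?_, ?_, ?_⟩
  · refine Submodule.mem_inf.2 ⟨Submodule.le_topologicalClosure _ ⟨k3 * y' * k3, ?_⟩, ?_⟩
    · simp only [LinearMap.comp_apply, LinearMap.mulRight_apply, LinearMap.mulLeft_apply]
      nth_rewrite 1 [hk3'.1]
      rw [hk3'.2]
      simp only [mul_assoc]
    · show IsSelfAdjoint (c * y' * c)
      rw [isSelfAdjoint_iff, star_mul, star_mul, hcs, hy's, mul_assoc]
  · have e1 : c * y' * c - d = (c - a) * y' * c + a * y' * (c - a) + (a * y' * a - d) := by
      simp only [sub_mul, mul_sub]; abel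
    rw [e1]
    have e2 : ‖(c - a) * y' * c‖ ≤ τ * ‖y'‖ * ‖a‖ :=
      (norm_mul_le _ _).trans (mul_le_mul ((norm_mul_le _ _).trans
        (mul_le_mul_of_nonneg_right hca (norm_nonneg _))) hcn (norm_nonneg _) (by positivity))
    have e3 : ‖a * y' * (c - a)‖ ≤ ‖a‖ * ‖y'‖ * τ :=
      (norm_mul_le _ _).trans (mul_le_mul (norm_mul_le _ _) hca (norm_nonneg _) (by positivity))
    have e4 := norm_add₃_le (a := (c - a) * y' * c) (b := a * y' * (c - a)) (c := a * y' * a - d)
    nlinarith [norm_nonneg y', norm_nonneg a]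
  · exact cfcₙ_nonneg fun t _ => rf_nonneg τ t
  · refine norm_cfcₙ_le fun t _ => ?_
    rw [Real.norm_of_nonneg (rf_nonneg τ t)]
    exact rf_le_one τ t
  · rw [← mul_assoc, ← mul_assoc, hec]
  · rw [mul_assoc, hce]
  · have e1 : e * e = cfcₙ (fun t => rf τ t * rf τ t) a := by
      rw [cfcₙ_mul (rf τ) (rf τ) a (rf_cont τ).continuousOn
        (rf_at_zero hτ0) (rf_cont τ).continuousOn (rf_at_zero hτ0)]
    rw [e1]
    show cfcₙ (rf δ) a ≤ _
    refine cfcₙ_mono (fun t _ => ?_) (rf_cont δ).continuousOn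
      ((rf_cont τ).mul (rf_cont τ)).continuousOn (rf_at_zero hδ)
      (by simp only [rf_at_zero hτ0, mul_zero])
    rcases le_total t τ with h | h
    · rw [rf_zero hδ (h.trans hτδ)]
      exact mul_nonneg (rf_nonneg _ _) (rf_nonneg _ _)
    · rw [rf_one hτ0 h, one_mul]
      exact rf_le_one _ _
  · rw [he2, he, ← cfcₙ_mul (rf (τ / 2)) (rf τ) a (rf_cont _).continuousOn
      (rf_at_zero hτ2) (rf_cont τ).continuousOn (rf_at_zero hτ0)]
    exact cfcₙ_congr fun t _ => hr2 t
  · exact cfcₙ_predicate _ a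
  · have e1 : cfcₙ (fun t : ℝ => t * (rf (τ / 2) t / max t (τ / 4))) a =
        a * cfcₙ (fun t : ℝ => rf (τ / 2) t / max t (τ / 4)) a := by
      rw [cfcₙ_mul (fun t : ℝ => t) (fun t : ℝ => rf (τ / 2) t / max t (τ / 4)) a
        continuous_id.continuousOn rfl hc2c.continuousOn (by simp [rf_at_zero hτ2])]
      congr 1
      exact cfcₙ_id' ℝ a
    rw [← e1, he2]
    refine cfcₙ_congr fun t _ => ?_
    rcases le_total t (τ / 4) with h | h
    · rw [rf_zero hτ2 (by linarith)]; simp
    · rw [max_eq_left h, mul_div_cancel₀]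
      have : 0 < τ / 4 := by positivity
      linarith

end Vale.Agent.P133.R2.H354
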