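import Vale.Agent.P133.R2.H354.DenB
import Vale.Agent.P133.R2.H354.DenS
import Vale.Agent.P133.R2.H157.Pieces
import Vale.Agent.P133.R2.H69.Compress

/-!
P133 (helper354, after helper307): in a purely infinite algebra the elements with a certificate
are dense.
-/

open scoped ComplexOrder

namespace Vale.Agent.P133.R2.H354

open Vale.Agent.P133.R2.H307 Vale.Agent.P133.R2.H28 Vale.Agent.P133.H832
  Vale.Agent.P133.Statement

universe u

variable {D : Type u} [NonUnitalCStarAlgebra D] [PartialOrder D] [StarOrderedRing D]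

/-- an element below `e` is fixed by a local unit of `e` -/
theorem fix {x e e2 : D} (hx : IsSelfAdjoint x) (hxe : x * x ≤ e) (he : 0 ≤ e)
    (he2 : IsSelfAdjoint e2) (h : e2 * e = e) : e2 * x = x := by
  have hx' : IsSelfAdjoint (x * x) := by
    have := IsSelfAdjoint.star_mul_self x
    rwa [hx.star_eq] at this
  have h1 : ((x * x : D) : Unitization ℂ D) ≤ ((e : D) : Unitization ℂ D) :=
    (Unitization.inr_le_iff _ _ hx' (IsSelfAdjoint.of_nonneg he)).2 hxe
  have h2 := star_left_conjugate_le_conjugate h1 (1 - (e2 : Unitization ℂ D))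
  have hs : star (1 - (e2 : Unitization ℂ D)) = 1 - (e2 : Unitization ℂ D) := by
    rw [star_sub, star_one, ← Unitization.inr_star, he2.star_eq]
  have h3 : (1 - (e2 : Unitization ℂ D)) * (e : Unitization ℂ D) = 0 := by
    rw [sub_mul, one_mul, ← Unitization.inr_mul, h, sub_self]
  rw [hs, h3, zero_mul] at h2
  set w : Unitization ℂ D := (x : Unitization ℂ D) * (1 - (e2 : Unitization ℂ D)) with hw
  have h4 : star w * w = (1 - (e2 : Unitization ℂ D)) * ((x * x : D) : Unitization ℂ D) *
      (1 - (e2 : Unitization ℂ D)) := by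
    rw [hw, star_mul, hs, ← Unitization.inr_star, hx.star_eq, Unitization.inr_mul]
    simp only [mul_assoc]
  have h5 : star w * w = 0 := by
    apply le_antisymm _ (star_mul_self_nonneg w)
    rw [h4]; exact h2
  have h6 : w = 0 := CStarRing.star_mul_self_eq_zero_iff w |>.1 h5
  have h7 : star w = 0 := by rw [h6, star_zero]
  rw [hw, star_mul, hs, ← Unitization.inr_star, hx.star_eq, sub_mul, one_mul,
    ← Unitization.inr_mul, ← Unitization.inr_sub] at h7
  have h8 : x - e2 * x = 0 := by
    apply Unitization.inr_injective (R := ℂ)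
    rw [h7, Unitization.inr_zero]
  exact (sub_eq_zero.1 h8).symm

/-- the perturbation and the estimates -/
theorem pert (hD : Diag D) {m : ℕ} (b : Fin m → D) (s : Fin m → ℝ) (hb0 : ∀ i, 0 ≤ b i)
    (hb1 : ∀ i, ‖b i‖ ≤ 1) {h : D} {η : ℝ} (hη0 : 0 < η)
    (hη : ∀ i, b i * h * b i - s i • (b i * b i) ≤ η • (b i * b i) ∧
        -(η • (b i * b i)) ≤ b i * h * b i - s i • (b i * b i))
    (hs : ‖∑ i, b i * b i‖ ≤ 1) {r : ℝ} (hr : 0 < r) {t : ℝ} (ht : 0 < t) :
    ∃ (c : Bool → Fin m → D), ∃ z1 : D,
      z1 = ∑ i, (b i * c true i) * star (b i * c true i) -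
        ∑ i, (b i * c false i) * star (b i * c false i) ∧ ‖z1‖ ≤ 6 ∧
      ‖∑ i, (star (b i * c true i) * (b i * c true i) -
        star (b i * c false i) * (b i * c false i))‖ ≤ t ∧
      ‖∑ i, (star (b i * c true i) * (h + r • z1) * (b i * c true i) -
        star (b i * c false i) * (h + r • z1) * (b i * c false i)) -
          (2 * r) • ∑ i, (b i * b i) * (b i * b i)‖ ≤ 9 * η + t := by
  set N : ℝ := (Fintype.card (Bool × Fin m) : ℝ) with hN
  have hN0 : 0 ≤ N := Nat.cast_nonneg _
  set S : ℝ := ∑ i : Bool × Fin m, |s i.2| with hS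
  have hS0 : 0 ≤ S := Finset.sum_nonneg fun i _ => abs_nonneg _
  set Q : ℝ := N ^ 2 + N + 3 * η * N + S + r * (2 * N ^ 2) + 1 with hQ
  have hQ0 : 0 < Q := by positivity
  set ε : ℝ := min 1 (t / Q) with hε
  have hε0 : 0 < ε := lt_min one_pos (by positivity)
  have hεQ : ε * Q ≤ t := by
    rw [← le_div_iff₀ hQ0]; exact min_le_right _ _
  have hε1 : ε ≤ 1 := min_le_left _ _
  have hbs : ∀ i, star (b i) = b i := fun i => (IsSelfAdjoint.of_nonneg (hb0 i)).star_eq
  -- a smaller bound, for the norm of P
  set ε' : ℝ := min ε (2 / (N ^ 2 + 1)) with hε'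
  have hε'0 : 0 < ε' := lt_min hε0 (by positivity)
  obtain ⟨c, hc1, hc2⟩ := diagF hD (fun i : Bool × Fin m => b i.2) hε'0
  set V : Bool × Fin m → D := fun i => b i.2 * c i with hV
  set C : Bool × Fin m → D := fun i => b i.2 * b i.2 with hC
  set σ : Bool × Fin m → ℝ := fun i => if i.1 then 1 else -1 with hσ
  have hσ' : ∀ i, σ i = 1 ∨ σ i = -1 := fun i => by
    rcases i with ⟨_ | _, j⟩ <;> simp [hσ]
  have hV1 : ∀ i, ‖V i‖ ≤ 1 := fun i =>
    (norm_mul_le _ _).trans (mul_le_one₀ (hb1 _) (norm_nonneg _) (hc1 i))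
  have hC1 : ∀ i, ‖C i‖ ≤ 1 := fun i =>
    (norm_mul_le _ _).trans (mul_le_one₀ (hb1 _) (norm_nonneg _) (hb1 _))
  have hVC : ∀ i, ‖star (V i) * V i - C i‖ ≤ ε' := fun i => by
    have := hc2 i i
    simp only [if_true, hbs] at this
    exact this.le
  have hVV : ∀ i j, i ≠ j → ‖star (V i) * V j‖ ≤ ε' := fun i j hij => by
    have := hc2 i j
    rw [if_neg hij, sub_zero] at this
    exact this.le
  set z1 : D := ∑ i, σ i • (V i * star (V i)) with hz1
  have hsum : ∀ f : Bool × Fin m → D, ∑ i, f i = ∑ i, (f (true, i) + f (false, i)) := by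
    intro f
    rw [Fintype.sum_prod_type, Fintype.sum_bool, Finset.sum_add_distrib]
  have hz1' : z1 = ∑ i, (b i * c (true, i)) * star (b i * c (true, i)) -
        ∑ i, (b i * c (false, i)) * star (b i * c (false, i)) := by
    rw [hz1, hsum, ← Finset.sum_sub_distrib]
    refine Finset.sum_congr rfl fun i _ => ?_
    simp [hσ, hV, sub_eq_add_neg]
  refine ⟨fun x i => c (x, i), z1, hz1', ?_, ?_, ?_⟩
  · set P := ∑ i, V i * star (V i) with hP
    have h1 := norm_P hV1 hε'0.le hVV
    have h2 : N ^ 2 * ε' ≤ 2 := by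
      have : ε' ≤ 2 / (N ^ 2 + 1) := min_le_right _ _
      have h3 : ε' * (N ^ 2 + 1) ≤ 2 := by rwa [le_div_iff₀ (by positivity)] at this
      nlinarith
    have h4 : ‖P‖ ≤ 2 := by
      by_contra h5
      push Not at h5
      have : ‖P‖ ^ 2 ≤ ‖P‖ + 2 := h1.trans (by linarith)
      nlinarith
    have h5 : ‖z1‖ ≤ 3 * ‖P‖ := by
      refine norm_three ?_ ?_
      · rw [hP, hz1, ← Finset.sum_neg_distrib]
        refine Finset.sum_le_sum fun i _ => ?_
        rcases hσ' i with h | h <;> rw [h]
        · rw [one_smul]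
          exact (neg_nonpos.2 (mul_star_self_nonneg _)).trans (mul_star_self_nonneg _)
        · rw [neg_one_smul]
      · refine Finset.sum_le_sum fun i _ => ?_
        rcases hσ' i with h | h <;> rw [h]
        · rw [one_smul]
        · rw [neg_one_smul]
          exact (neg_nonpos.2 (mul_star_self_nonneg _)).trans (mul_star_self_nonneg _)
    linarith
  · have e1 : ∑ i, (star (b i * c (true, i)) * (b i * c (true, i)) -
        star (b i * c (false, i)) * (b i * c (false, i))) =
        ∑ i, σ i • (star (V i) * V i - C i) := by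
      rw [hsum]
      refine Finset.sum_congr rfl fun i _ => ?_
      simp [hσ, hV, hC]
    show ‖∑ i, (star (b i * c (true, i)) * (b i * c (true, i)) -
        star (b i * c (false, i)) * (b i * c (false, i)))‖ ≤ t
    rw [e1]
    have e2 : ∀ i, ‖σ i • (star (V i) * V i - C i)‖ ≤ ε := fun i => by
      rw [norm_smul]
      have : ‖σ i‖ = 1 := by rcases hσ' i with h | h <;> rw [h] <;> norm_num
      rw [this, one_mul]
      exact (hVC i).trans (min_le_left _ _)
    calc _ ≤ ∑ i : Bool × Fin m, ε := (norm_sum_le _ _).trans (Finset.sum_le_sum fun i _ => e2 i)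
      _ = ε * N := by rw [Finset.sum_const, nsmul_eq_mul, Finset.card_univ, mul_comm]
      _ ≤ ε * Q := by
          refine mul_le_mul_of_nonneg_left ?_ hε0.le
          rw [hQ]
          have : 0 ≤ 3 * η * N := by positivity
          have : 0 ≤ r * (2 * N ^ 2) := by positivity
          nlinarith [sq_nonneg N]
      _ ≤ t := hεQ
  · have hCs : ‖∑ i, C i‖ ≤ 2 := by
      rw [hsum]
      simp only [hC]
      rw [Finset.sum_add_distrib]
      exact (norm_add_le _ _).trans (by linarith)
    have hA := est_A (V := V) (C := C) (σ := σ) (s := fun i => s i.2) hσ' (h := h) (η := η) (ε := ε)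
      ?_ hη0.le hCs hε0.le (fun i => (hVC i).trans (min_le_left _ _))
    swap
    · intro i
      have e1 : star (V i) * h * V i - s i.2 • (star (V i) * V i) =
          star (c i) * (b i.2 * h * b i.2 - s i.2 • (b i.2 * b i.2)) * c i := by
        simp only [hV]
        rw [star_mul, hbs, mul_sub, sub_mul, mul_smul_comm, smul_mul_assoc]
        simp only [mul_assoc]
      have e2 : η • (star (V i) * V i) = star (c i) * (η • (b i.2 * b i.2)) * c i := by
        simp only [hV]
        rw [star_mul, hbs, mul_smul_comm, smul_mul_assoc]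
        simp only [mul_assoc]
      rw [e1, e2]
      refine ⟨?_, star_left_conjugate_le_conjugate (hη i.2).1 _⟩
      have := star_left_conjugate_le_conjugate (hη i.2).2 (c i)
      rwa [mul_neg, neg_mul] at this
    have hB := est_B (V := V) (C := C) (σ := σ) (ε := ε) hσ' hV1 hC1 hε0.le
      (fun i => (hVC i).trans (min_le_left _ _))
      (fun i j hij => (hVV i j hij).trans (min_le_left _ _))
    have e1 : ∑ i, (star (b i * c (true, i)) * (h + r • z1) * (b i * c (true, i)) -
        star (b i * c (false, i)) * (h + r • z1) * (b i * c (false, i))) -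
          (2 * r) • ∑ i, (b i * b i) * (b i * b i) =
        ∑ i, σ i • (star (V i) * h * V i - s i.2 • C i) +
          r • ∑ i, (σ i • (star (V i) * (∑ j, σ j • (V j * star (V j))) * V i) - C i * C i) := by
      rw [← hz1]
      clear_value z1
      rw [hsum, hsum, Finset.smul_sum, Finset.smul_sum, ← Finset.sum_add_distrib,
        ← Finset.sum_sub_distrib]
      refine Finset.sum_congr rfl fun i _ => ?_
      simp only [hσ, hV, hC, if_true, Bool.false_eq_true, if_false, one_smul, neg_one_smul]
      simp only [mul_add, add_mul, mul_smul_comm, smul_mul_assoc, smul_add, smul_sub, smul_neg,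
        two_mul, add_smul]
      abel
    show ‖∑ i, (star (b i * c (true, i)) * (h + r • z1) * (b i * c (true, i)) -
        star (b i * c (false, i)) * (h + r • z1) * (b i * c (false, i))) -
          (2 * r) • ∑ i, (b i * b i) * (b i * b i)‖ ≤ 9 * η + t
    rw [e1]
    refine (norm_add_le _ _).trans ?_
    rw [norm_smul, Real.norm_of_nonneg hr.le]
    have h5 : r * ‖∑ i, (σ i • (star (V i) * (∑ j, σ j • (V j * star (V j))) * V i) -
        C i * C i)‖ ≤ r * (2 * N ^ 2 * ε) := mul_le_mul_of_nonneg_left hB hr.le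
    have h6 : ε * Q = ε * (N ^ 2 + N + 1) + (3 * η * (N * ε) + S * ε + r * (2 * N ^ 2 * ε)) := by
      rw [hQ]; ring
    have h7 : 0 ≤ ε * (N ^ 2 + N + 1) := by positivity
    have h8 : 3 * η * (2 + N * ε) + S * ε = 6 * η + (3 * η * (N * ε) + S * ε) := by ring
    linarith

/-- Row D: in a purely infinite algebra the elements with a certificate are dense. -/
theorem specDense : SpecDense.{u} := by
  intro D _ _ _ hPI a ha δ hδ d hd ρ hρ M hM
  have hsa : star a = a := (IsSelfAdjoint.of_nonneg ha).star_eq
  have hD : Diag D := diag_of_eltPI D (eltPI_of D hPI)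
  obtain ⟨d0, e, e2, c2, hd0, hdd, he0, he1, h1, h2, hre, h3, h4, h5⟩ :=
    step ha hδ hd (half_pos hρ)
  have hd0s : IsSelfAdjoint d0 := (Submodule.mem_inf.1 hd0).2
  set r : ℝ := ρ / 16 with hr
  have hr0 : 0 < r := by positivity
  set κ : ℝ := r / 4 with hκ
  have hκ0 : 0 < κ := by positivity
  obtain ⟨m, s, b, hb0, hb1, -, -, -, hbe, hee, hη⟩ := H157.pieces hd0s he0 he1 h1 h2
    (show (0 : ℝ) < κ / 36 by positivity)
  set t : ℝ := min (κ / 4) (κ / (2 * M)) with ht
  have ht0 : 0 < t := lt_min (by positivity) (by positivity)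
  obtain ⟨c, z1, hz1, hz1n, hT, hQ⟩ := pert hD b s hb0 hb1 (by positivity) hη
    (by rw [hbe]; exact he1) hr0 ht0
  set R : D := ramp δ a with hR
  have hR0 : 0 ≤ R := cfcₙ_nonneg fun t _ => rf_nonneg δ t
  have hxq : r • R ≤ (2 * r) • ∑ i, (b i * b i) * (b i * b i) := by
    rw [mul_comm 2 r, mul_smul]
    exact smul_le_smul_of_nonneg_left (hre.trans hee) hr0.le
  obtain ⟨v, hv1, hv⟩ := H69.compress (smul_nonneg hr0.le hR0) hxq
    (show (0 : ℝ) < κ / 4 by positivity)
  have hbi : ∀ i, b i * b i ≤ e := fun i => by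
    rw [← hbe]
    refine Finset.single_le_sum (f := fun i => b i * b i) (fun j _ => ?_) (Finset.mem_univ i)
    have := star_mul_self_nonneg (b j)
    rwa [(IsSelfAdjoint.of_nonneg (hb0 j)).star_eq] at this
  have hfix : ∀ i, e2 * b i = b i := fun i =>
    fix (IsSelfAdjoint.of_nonneg (hb0 i)) (hbi i) he0 h4 h3
  have haw : ∀ x i, a * (c2 * (b i * c x i * v)) = b i * c x i * v := fun x i => by
    rw [← mul_assoc a, ← h5, ← mul_assoc e2, ← mul_assoc e2, hfix]
  have hmem : ∀ y : D, IsSelfAdjoint y → e2 * y = y → y ∈ herS a := by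
    intro y hy h
    have h6 : e2 = star c2 * a := by
      rw [← h4.star_eq, h5, star_mul, hsa]
    have h7 : y * e2 = y := by
      have := congrArg star h
      rwa [star_mul, hy.star_eq, h4.star_eq] at this
    refine Submodule.mem_inf.2 ⟨Submodule.le_topologicalClosure _ ⟨c2 * y * star c2, ?_⟩, hy⟩
    simp only [LinearMap.comp_apply, LinearMap.mulRight_apply, LinearMap.mulLeft_apply]
    calc a * (c2 * y * star c2 * a) = (a * c2) * y * (star c2 * a) := by simp only [mul_assoc]
      _ = y := by rw [← h5, ← h6, h, h7]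
  have hz1s : IsSelfAdjoint z1 := by
    rw [hz1]
    exact (isSelfAdjoint_sum _ fun i _ => IsSelfAdjoint.mul_star_self _).sub
      (isSelfAdjoint_sum _ fun i _ => IsSelfAdjoint.mul_star_self _)
  have hz1m : z1 ∈ herS a := by
    refine hmem z1 hz1s ?_
    rw [hz1, mul_sub, Finset.mul_sum, Finset.mul_sum]
    congr 1
    · refine Finset.sum_congr rfl fun i _ => ?_
      rw [← mul_assoc, ← mul_assoc, hfix]
    · refine Finset.sum_congr rfl fun i _ => ?_
      rw [← mul_assoc, ← mul_assoc, hfix]
  refine ⟨(d0 - d) + r • z1, (herS a).add_mem ((herS a).sub_mem hd0 hd)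
    ((herS a).smul_mem r hz1m), ?_, m, fun i => c2 * (b i * c true i * v),
    fun i => c2 * (b i * c false i * v), κ, hκ0, ?_, ?_⟩
  · refine (norm_add_le _ _).trans ?_
    rw [norm_smul, Real.norm_of_nonneg hr0.le]
    have : r * ‖z1‖ ≤ r * 6 := mul_le_mul_of_nonneg_left hz1n hr0.le
    have : r * 6 = ρ * (6 / 16) := by rw [hr]; ring
    linarith
  · have e1 : ∑ i, (star (c2 * (b i * c true i * v)) * (a * a) * (c2 * (b i * c true i * v)) -
        star (c2 * (b i * c false i * v)) * (a * a) * (c2 * (b i * c false i * v))) =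
        star v * (∑ i, (star (b i * c true i) * (b i * c true i) -
          star (b i * c false i) * (b i * c false i))) * v := by
      rw [Finset.mul_sum, Finset.sum_mul]
      refine Finset.sum_congr rfl fun i _ => ?_
      have : ∀ x, star (c2 * (b i * c x i * v)) * (a * a) * (c2 * (b i * c x i * v)) =
          star v * (star (b i * c x i) * (b i * c x i)) * v := fun x => by
        calc _ = star (a * (c2 * (b i * c x i * v))) * (a * (c2 * (b i * c x i * v))) := by
              rw [star_mul a, hsa]; simp only [mul_assoc]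
          _ = _ := by
              rw [haw, star_mul (b i * c x i)]; simp only [mul_assoc]
      rw [this, this, mul_sub, sub_mul]
    rw [e1]
    have e2 : ‖star v * (∑ i, (star (b i * c true i) * (b i * c true i) -
          star (b i * c false i) * (b i * c false i))) * v‖ ≤ t := by
      calc _ ≤ ‖star v‖ * ‖∑ i, (star (b i * c true i) * (b i * c true i) -
          star (b i * c false i) * (b i * c false i))‖ * ‖v‖ :=
            (norm_mul_le _ _).trans (mul_le_mul_of_nonneg_right (norm_mul_le _ _) (norm_nonneg _))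
        _ ≤ 1 * t * 1 := by rw [norm_star]; gcongr
        _ = t := by ring
    have e3 : M * t ≤ κ / 2 := by
      have : t ≤ κ / (2 * M) := min_le_right _ _
      rw [le_div_iff₀ (by positivity)] at this
      linarith
    have := mul_le_mul_of_nonneg_left e2 hM.le
    linarith
  · have e0 : d + (d0 - d + r • z1) = d0 + r • z1 := by abel
    rw [e0]
    set h : D := d0 + r • z1 with hh
    have e1 : ∑ i, (star (c2 * (b i * c true i * v)) * (a * h * a) *
          (c2 * (b i * c true i * v)) -
        star (c2 * (b i * c false i * v)) * (a * h * a) * (c2 * (b i * c false i * v))) =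
        star v * (∑ i, (star (b i * c true i) * h * (b i * c true i) -
          star (b i * c false i) * h * (b i * c false i))) * v := by
      rw [Finset.mul_sum, Finset.sum_mul]
      refine Finset.sum_congr rfl fun i _ => ?_
      have : ∀ x, star (c2 * (b i * c x i * v)) * (a * h * a) * (c2 * (b i * c x i * v)) =
          star v * (star (b i * c x i) * h * (b i * c x i)) * v := fun x => by
        calc _ = star (a * (c2 * (b i * c x i * v))) * h * (a * (c2 * (b i * c x i * v))) := by
              rw [star_mul a, hsa]; simp only [mul_assoc]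
          _ = _ := by
              rw [haw, star_mul (b i * c x i)]; simp only [mul_assoc]
      rw [this, this, mul_sub, sub_mul]
    rw [e1]
    have e4 : 4 * κ = r := by rw [hκ]; ring
    rw [e4]
    set Q' := ∑ i, (star (b i * c true i) * h * (b i * c true i) -
          star (b i * c false i) * h * (b i * c false i)) with hQ'
    set q := (2 * r) • ∑ i, (b i * b i) * (b i * b i) with hq
    have e5 : star v * Q' * v - r • R = star v * (Q' - q) * v + (star v * q * v - r • R) := by
      rw [mul_sub, sub_mul]; abel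
    rw [e5]
    have e6 : ‖star v * (Q' - q) * v‖ ≤ 9 * (κ / 36) + t := by
      calc _ ≤ ‖star v‖ * ‖Q' - q‖ * ‖v‖ :=
            (norm_mul_le _ _).trans (mul_le_mul_of_nonneg_right (norm_mul_le _ _) (norm_nonneg _))
        _ ≤ 1 * (9 * (κ / 36) + t) * 1 := by rw [norm_star]; gcongr
        _ = _ := by ring
    have e7 : t ≤ κ / 4 := min_le_left _ _
    refine lt_of_le_of_lt ((norm_add_le _ _).trans (add_le_add e6 hv)) ?_
    linarith

end Vale.Agent.P133.R2.H354
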