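import Vale.Agent.P133.R2.H354.Alg
import Vale.Agent.P133.R2.H474.NS4

/-!
P133 (helper354): commuting copies give two orthogonal elements, each generating the ideal.
-/

open scoped ComplexOrder

namespace Vale.Agent.P133.R2.H354

open Vale.Agent.P133 Vale.Agent.P133.H832

universe u

section

variable {E : Type u} [NonUnitalCStarAlgebra E]

/-- selfadjoint and commuting across copies -/
def SA (D : ℕ → ℕ → E) : Prop :=
  (∀ j i, star (D j i) = D j i) ∧ ∀ j l i i', j ≠ l → D j i * D l i' = D l i' * D j i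

theorem SA.step {D : ℕ → ℕ → E} (h : SA D) (n : ℕ) : SA (step n D) := by
  have h2 : ∀ j i i', D (2 * j) i * D (2 * j + 1) i' = D (2 * j + 1) i' * D (2 * j) i :=
    fun j i i' => h.2 _ _ _ _ (by omega)
  refine ⟨fun j i => ?_, fun j l i i' hjl => ?_⟩
  · unfold H354.step
    split_ifs
    · rw [star_add, h.1, h.1]
    · rw [star_add, star_add, star_mul, h.1, h.1, h.1, h.1, h2]
  · have hc : ∀ k k' m m', (k = 2 * j ∨ k = 2 * j + 1) → (m = 2 * l ∨ m = 2 * l + 1) →
        Commute (D k k') (D m m') := by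
      intro k k' m m' hk hm
      exact h.2 _ _ _ _ (by rcases hk with rfl | rfl <;> rcases hm with rfl | rfl <;> omega)
    change Commute _ _
    unfold H354.step
    split_ifs
    · exact ((hc _ _ _ _ (Or.inl rfl) (Or.inl rfl)).add_right
        (hc _ _ _ _ (Or.inl rfl) (Or.inr rfl))).add_left
        ((hc _ _ _ _ (Or.inr rfl) (Or.inl rfl)).add_right (hc _ _ _ _ (Or.inr rfl) (Or.inr rfl)))
    · have hL : ∀ k k', (k = 2 * j ∨ k = 2 * j + 1) → Commute (D k k')
          (D (2 * l) n + D (2 * l + 1) n + D (2 * l) (n + 1) * D (2 * l + 1) (n + 1)) :=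
        fun k k' hk => ((hc _ _ _ _ hk (Or.inl rfl)).add_right (hc _ _ _ _ hk (Or.inr rfl))).add_right
          ((hc _ _ _ _ hk (Or.inl rfl)).mul_right (hc _ _ _ _ hk (Or.inr rfl)))
      exact (hL _ _ (Or.inl rfl)).add_left (hL _ _ (Or.inr rfl))
    · have hL : ∀ k k', (k = 2 * l ∨ k = 2 * l + 1) → Commute
          (D (2 * j) n + D (2 * j + 1) n + D (2 * j) (n + 1) * D (2 * j + 1) (n + 1)) (D k k') :=
        fun k k' hk => ((hc _ _ _ _ (Or.inl rfl) hk).add_left (hc _ _ _ _ (Or.inr rfl) hk)).add_left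
          ((hc _ _ _ _ (Or.inl rfl) hk).mul_left (hc _ _ _ _ (Or.inr rfl) hk))
      exact (hL _ _ (Or.inl rfl)).add_right (hL _ _ (Or.inr rfl))
    · have hL : ∀ k k', (k = 2 * l ∨ k = 2 * l + 1) → Commute
          (D (2 * j) n + D (2 * j + 1) n + D (2 * j) (n + 1) * D (2 * j + 1) (n + 1)) (D k k') :=
        fun k k' hk => ((hc _ _ _ _ (Or.inl rfl) hk).add_left (hc _ _ _ _ (Or.inr rfl) hk)).add_left
          ((hc _ _ _ _ (Or.inl rfl) hk).mul_left (hc _ _ _ _ (Or.inr rfl) hk))
      exact ((hL _ _ (Or.inl rfl)).add_right (hL _ _ (Or.inr rfl))).add_right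
        ((hL _ _ (Or.inl rfl)).mul_right (hL _ _ (Or.inr rfl)))

theorem SA.zel (n : ℕ) : ∀ {D : ℕ → ℕ → E}, SA D → star (zel n D) = zel n D := by
  induction n with
  | zero => intro D h; exact h.1 0 0
  | succ n ih => intro D h; exact ih (h.step n)

end

section

variable {E : Type u} [NonUnitalCStarAlgebra E] [PartialOrder E] [StarOrderedRing E]

/-- the hypotheses on the commuting copies inside a C*-algebra generated by them and `a` -/
structure Fam (n : ℕ) (G : ℕ → Set E) (a : E) (D : ℕ → ℕ → E) : Prop where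
  comm : ∀ j l, j ≠ l → ∀ x ∈ G j, ∀ y ∈ G l, x * y = y * x
  central : ∀ j, ∀ x ∈ G j, x * a = a * x
  dense : Dense ((Submodule.span ℂ (Subsemigroup.closure ((⋃ j, G j) ∪ {a}) : Set E) :
    Submodule ℂ E) : Set E)
  mem : ∀ j i, D j i ∈ G j
  self : ∀ j i, star (D j i) = D j i
  good : ∀ j, j < 2 ^ n → ∃ x q y : Fin (n + 1) → E, (∀ i, q i ∈ G j) ∧
    (∑ i, x i * (D j i * q i - q i * D j i) * y i) * a = a

omit [PartialOrder E] [StarOrderedRing E] in
theorem Fam.a_central {n : ℕ} {G : ℕ → Set E} {a : E} {D : ℕ → ℕ → E} (h : Fam n G a D) (x : E) :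
    a * x = x * a := by
  have hcl : IsClosed {x : E | a * x = x * a} :=
    isClosed_eq (by fun_prop) (by fun_prop)
  have hsub : ((Submodule.span ℂ (Subsemigroup.closure ((⋃ j, G j) ∪ {a}) : Set E) :
      Submodule ℂ E) : Set E) ⊆ {x : E | a * x = x * a} := by
    intro x hx
    change a * x = x * a
    induction hx using Submodule.span_induction with
    | mem x hx =>
      induction hx using Subsemigroup.closure_induction with
      | mem x hx =>
        rcases hx with hx | hx
        · obtain ⟨j, hx⟩ := Set.mem_iUnion.1 hx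
          exact (h.central j x hx).symm
        · rw [Set.mem_singleton_iff.1 hx]
      | mul x y _ _ hx hy => rw [← mul_assoc, hx, mul_assoc, hy, mul_assoc]
    | zero => rw [mul_zero, zero_mul]
    | add x y _ _ hx hy => rw [mul_add, add_mul, hx, hy]
    | smul c x _ hx => rw [mul_smul_comm, smul_mul_assoc, hx]
  have h1 := closure_minimal hsub hcl
  rw [h.dense.closure_eq] at h1
  exact h1 (Set.mem_univ x)

omit [PartialOrder E] [StarOrderedRing E] in
theorem Fam.sa {n : ℕ} {G : ℕ → Set E} {a : E} {D : ℕ → ℕ → E} (h : Fam n G a D) : SA D :=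
  ⟨h.self, fun j l i i' hjl => h.comm j l hjl _ (h.mem j i) _ (h.mem l i')⟩

theorem map_cut_zero {B : Type u} [NonUnitalCStarAlgebra B] [PartialOrder B]
    [StarOrderedRing B] (φ : E →⋆ₙₐ[ℂ] B) {a : E} (ha : 0 ≤ a)
    {δ : ℝ} (hδ : 0 < δ) (h0 : φ a = 0) : φ (cfcₙ (fun t : ℝ => max (t - δ) 0) a) = 0 := by
  have hf0 : (fun t : ℝ => max (t - δ) 0) 0 = 0 := by
    simp only [zero_sub]; exact max_eq_right (by linarith)
  have h2 : φ (cfcₙ (fun t : ℝ => max (t - δ) 0) a) = cfcₙ (fun t : ℝ => max (t - δ) 0) (φ a) :=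
    NonUnitalStarAlgHomClass.map_cfcₙ φ _ a (hf := by fun_prop) (hf₀ := hf0)
      (hφ := map_continuous φ) (ha := IsSelfAdjoint.of_nonneg ha)
      (hφa := by rw [h0]; exact IsSelfAdjoint.zero B)
  rw [h2, h0, cfcₙ_apply_zero]

/-- the final element is nowhere scalar -/
theorem Fam.nowhere {n : ℕ} {G : ℕ → Set E} {a : E} {D : ℕ → ℕ → E} (h : Fam n G a D)
    (ha : 0 ≤ a) {δ : ℝ} (hδ : 0 < δ) {P : Submodule ℂ E} (hP : IsClosedIdeal P)
    (hc : cfcₙ (fun t : ℝ => max (t - δ) 0) a ∉ P) (l : ℝ) :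
    a * zel n D * a * a - l • a ∉ P := by
  intro hmem
  have hc0 : (0 : E) ≤ cfcₙ (fun t : ℝ => max (t - δ) 0) a :=
    cfcₙ_nonneg fun t _ => le_max_right _ _
  obtain ⟨B, i1, i2, i3, φ, hφ, hφP, hφc, hprime⟩ := exists_prime_quotient hP hc0 hc
  have hφa : φ a ≠ 0 := fun h0 => hφc (map_cut_zero φ ha hδ h0)
  have hpr : ∀ x y : B, (∀ w ∈ Subsemigroup.closure ((⋃ j, φ '' G j) ∪ {φ a}),
      x * w * y = 0) → x = 0 ∨ y = 0 := by
    intro x y hw
    obtain ⟨x, rfl⟩ := hφ x
    obtain ⟨y, rfl⟩ := hφ y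
    by_contra hcon
    push Not at hcon
    obtain ⟨w, hw'⟩ := hprime x y hcon.1 hcon.2
    apply hw'
    have hφcont : Continuous φ := map_continuous φ
    have hcl : IsClosed {w : E | φ x * φ w * φ y = 0} :=
      isClosed_eq (by fun_prop) continuous_const
    have hsub : ((Submodule.span ℂ (Subsemigroup.closure ((⋃ j, G j) ∪ {a}) : Set E) :
        Submodule ℂ E) : Set E) ⊆ {w : E | φ x * φ w * φ y = 0} := by
      intro w hw1
      change φ x * φ w * φ y = 0
      induction hw1 using Submodule.span_induction with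
      | mem w hw1 =>
        apply hw
        induction hw1 using Subsemigroup.closure_induction with
        | mem w hw1 =>
          apply Subsemigroup.subset_closure
          rcases hw1 with hw1 | hw1
          · obtain ⟨j, hw1⟩ := Set.mem_iUnion.1 hw1
            exact Or.inl (Set.mem_iUnion.2 ⟨j, Set.mem_image_of_mem φ hw1⟩)
          · rw [Set.mem_singleton_iff.1 hw1]
            exact Or.inr rfl
        | mul x y _ _ hx hy => rw [map_mul]; exact mul_mem hx hy
      | zero => rw [map_zero, mul_zero, zero_mul]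
      | add u v _ _ hu hv => rw [map_add, mul_add, add_mul, hu, hv, add_zero]
      | smul c u _ hu => rw [map_smul, mul_smul_comm, smul_mul_assoc, hu, smul_zero]
    have h1 := closure_minimal hsub hcl
    rw [h.dense.closure_eq] at h1
    have h2 : φ x * φ w * φ y = 0 := h1 (Set.mem_univ w)
    rw [map_mul, map_mul, h2]
  have hC : Copies (fun j => φ '' G j) (φ a) := by
    refine ⟨?_, ?_, hpr⟩
    · rintro j l hjl _ ⟨x, hx, rfl⟩ _ ⟨y, hy, rfl⟩
      rw [← map_mul, ← map_mul, h.comm j l hjl x hx y hy]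
    · rintro j _ ⟨x, hx, rfl⟩
      rw [← map_mul, ← map_mul, h.central j x hx]
  obtain ⟨b, hb⟩ := hC.noncentral n (D := fun j i => φ (D j i))
    (fun j i => NonUnitalSubring.subset_closure (Set.mem_image_of_mem φ (h.mem j i)))
    (fun j hj => by
      by_contra hcon
      push Not at hcon
      obtain ⟨x, q, y, hq, h1⟩ := h.good j hj
      apply hφa
      rw [← h1, map_mul, map_sum]
      have h2 : ∀ i, φ (x i * (D j i * q i - q i * D j i) * y i) = 0 := by
        intro i
        have h3 := hcon i (by have := i.2; omega) (φ (q i))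
          (NonUnitalSubring.subset_closure (Set.mem_image_of_mem φ (hq i)))
        rw [map_mul, map_mul, map_sub, map_mul, map_mul, h3, sub_self, mul_zero, zero_mul]
      simp only [h2, Finset.sum_const_zero, zero_mul])
  rw [← map_zel (φ : E → B) (map_add φ) (map_mul φ)] at hb
  set z : B := φ (zel n D) with hz
  set c : B := φ a with hcdef
  have hcc : ∀ b : B, c * b = b * c := by
    intro b
    obtain ⟨b, rfl⟩ := hφ b
    rw [hcdef, ← map_mul, ← map_mul, h.a_central b]
  have h3 : c * z * c * c = l • c := by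
    have h4 := hφP _ hmem
    have hls : φ (l • a) = l • c := by
      have e1 : (l • a : E) = ((l : ℂ)) • a := (Complex.coe_smul l a).symm
      have e2 : (l • c : B) = ((l : ℂ)) • c := (Complex.coe_smul l c).symm
      rw [e1, e2, map_smul]
    rw [map_sub, map_mul, map_mul, map_mul, hls, ← hz, ← hcdef] at h4
    exact sub_eq_zero.1 h4
  have h5 : c * (c * (c * (b * z - z * b))) = 0 := by
    have e1 : c * (c * (c * (b * z))) = b * (c * z * c * c) := by
      calc c * (c * (c * (b * z))) = c * (c * ((c * b) * z)) := by rw [mul_assoc c b z]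
        _ = c * (c * ((b * c) * z)) := by rw [hcc b]
        _ = c * (c * (b * (c * z))) := by rw [mul_assoc b c z]
        _ = c * ((c * b) * (c * z)) := by rw [mul_assoc c b (c * z)]
        _ = c * ((b * c) * (c * z)) := by rw [hcc b]
        _ = (c * b) * (c * (c * z)) := by simp only [mul_assoc]
        _ = (b * c) * (c * (c * z)) := by rw [hcc b]
        _ = b * (c * (c * (c * z))) := by simp only [mul_assoc]
        _ = b * (c * z * c * c) := by
            have : c * (c * (c * z)) = c * z * c * c := by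
              rw [hcc (c * z), hcc (c * z * c)]
            rw [this]
    have e2 : c * (c * (c * (z * b))) = (c * z * c * c) * b := by
      have : c * (c * (c * (z * b))) = (c * (c * (c * z))) * b := by simp only [mul_assoc]
      rw [this]
      have : c * (c * (c * z)) = c * z * c * c := by
        rw [hcc (c * z), hcc (c * z * c)]
      rw [this]
    rw [mul_sub, mul_sub, mul_sub, e1, e2, h3, mul_smul_comm, smul_mul_assoc, hcc b, sub_self]
  have hpc : ∀ k : B, c * k = 0 → k = 0 := by
    intro k hk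
    rcases hpr c k (fun w _ => by rw [hcc w, mul_assoc, hk, mul_zero]) with h6 | h6
    · exact absurd h6 hφa
    · exact h6
  exact hb (sub_eq_zero.1 (hpc _ (hpc _ (hpc _ h5))))

/-- two orthogonal elements, each generating the ideal of `a` up to a cut -/
theorem Fam.orth {n : ℕ} {G : ℕ → Set E} {a : E} {D : ℕ → ℕ → E} (h : Fam n G a D)
    (ha : 0 ≤ a) {δ : ℝ} (hδ : 0 < δ) : ∃ b₁ b₂ : E, 0 ≤ b₁ ∧ 0 ≤ b₂ ∧ b₁ * b₂ = 0 ∧
      InId (a * b₁ * a) (cfcₙ (fun t : ℝ => max (t - δ) 0) a) ∧
      InId (a * b₂ * a) (cfcₙ (fun t : ℝ => max (t - δ) 0) a) := by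
  have has : star a = a := (IsSelfAdjoint.of_nonneg ha).star_eq
  have hz : star (zel n D) = zel n D := h.sa.zel n
  obtain ⟨b₁, b₂, h1, h2, h12, -, -, hI1, hI2⟩ :=
    (Vale.Agent.P133.R2.H474.orth_iff_nowhere_scalar ha).2 (fun δ hδ => ⟨a * zel n D * a, by
      rw [IsSelfAdjoint, star_mul, star_mul, has, hz, mul_assoc], subset_closure ⟨_, rfl⟩,
      fun P hP hc l => h.nowhere ha hδ hP hc l⟩) δ hδ
  have hc0 : (0 : E) ≤ cfcₙ (fun t : ℝ => max (t - δ) 0) a :=
    cfcₙ_nonneg fun t _ => le_max_right _ _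
  have key : ∀ b : E, InId b (cfcₙ (fun t : ℝ => max (t - δ) 0) a) →
      InId (a * b * a) (cfcₙ (fun t : ℝ => max (t - δ) 0) a) := by
    intro b hb
    obtain ⟨I, hI, hI'⟩ := isClosedIdeal_inId (a * b * a)
    rw [← hI']
    by_contra hcI
    obtain ⟨B, i1, i2, i3, φ, hφ, hφP, hφc, hprime⟩ := exists_prime_quotient hI hc0 hcI
    have hφa : φ a ≠ 0 := fun h0 => hφc (map_cut_zero φ ha hδ h0)
    have h3 : φ (a * b * a) = 0 := hφP _ ((hI' _).2 (InId.refl _))
    have hpc : ∀ k : E, φ (a * k) = 0 → φ k = 0 := by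
      intro k hk
      by_contra hk0
      obtain ⟨w, hw⟩ := hprime a k hφa hk0
      apply hw
      rw [h.a_central w, mul_assoc, map_mul, hk, mul_zero]
    have h4 : φ b = 0 := by
      apply hpc
      apply hpc
      have e : a * (a * b) = a * b * a := h.a_central (a * b)
      rw [e]
      exact h3
    -- the kernel of `φ` contains the ideal of `b`
    apply hφc
    rw [← norm_le_zero_iff]
    refine le_of_forall_pos_le_add fun ε hε => ?_
    obtain ⟨m, r, s, hrs⟩ := hb ε hε
    have h5 : φ (∑ k, r k * b * s k) = 0 := by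
      rw [map_sum]
      refine Finset.sum_eq_zero fun k _ => ?_
      rw [map_mul, map_mul, h4, mul_zero, zero_mul]
    have h6 : φ (cfcₙ (fun t : ℝ => max (t - δ) 0) a) =
        -φ (∑ k, r k * b * s k - cfcₙ (fun t : ℝ => max (t - δ) 0) a) := by
      rw [map_sub, h5, zero_sub, neg_neg]
    rw [h6, norm_neg, zero_add]
    exact (NonUnitalStarAlgHom.norm_apply_le φ _).trans hrs.le
  exact ⟨b₁, b₂, h1, h2, h12, key _ hI1, key _ hI2⟩

end

end Vale.Agent.P133.R2.H354
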