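import Vale.Agent.P133.R2.H354.Seq
import Vale.Agent.P133.R2.H28.Iter

/-!
P133 (helper354): no central characters give two orthogonal elements, each generating the ideal.
-/

open scoped ComplexOrder ENNReal

namespace Vale.Agent.P133.R2.H354

open Vale.Agent.P133 Vale.Agent.P133.H832 Filter

universe u

section

variable {A L : Type u} [NonUnitalCStarAlgebra A] [PartialOrder A] [StarOrderedRing A]
  [NonUnitalCStarAlgebra L] [PartialOrder L] [StarOrderedRing L]

theorem main_abs (ev : ℕ → L →⋆ₙₐ[ℂ] A)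
    (hmk : ∀ (f : ℕ → A) (C : ℝ), (∀ n, ‖f n‖ ≤ C) → ∃ l : L, ∀ n, ev n l = f n)
    (hinj : ∀ l l' : L, (∀ n, ev n l = ev n l') → l = l')
    (hA : NoCentralChar A) {s : A} (hs : star s = s) {δ : ℝ} (hδ : 0 < δ) :
    ∃ c₁ c₂ : A, 0 ≤ c₁ ∧ 0 ≤ c₂ ∧ c₁ * c₂ = 0 ∧
      c₁ ∈ closure (Set.range fun w => s * s * w * (s * s)) ∧
      c₂ ∈ closure (Set.range fun w => s * s * w * (s * s)) ∧
      InId c₁ (cfcₙ (fun t : ℝ => max (t - δ) 0) (s * s)) ∧
      InId c₂ (cfcₙ (fun t : ℝ => max (t - δ) 0) (s * s)) := by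
  classical
  obtain ⟨N, C, h1⟩ := one_copy hA
  choose T hT using fun n : ℕ => many_copies h1 {s} (ε := 1 / ((n : ℝ) + 1)) (by positivity)
    (2 ^ N)
  obtain ⟨J, hJ, hJ'⟩ := null_ideal ev (fun n l => NonUnitalStarAlgHom.norm_apply_le (ev n) l)
  obtain ⟨Q, i1, i2, i3, φ, hφs, hφJ⟩ := hJ.quot
  have hφ : ∀ l, φ l = 0 ↔ Tendsto (fun n => ‖ev n l‖) atTop (nhds 0) := fun l =>
    (hφJ l).trans (hJ' l)
  have hz : ∀ l : L, (∀ n : ℕ, ‖ev n l‖ ≤ 1 / ((n : ℝ) + 1)) → φ l = 0 := fun l hl =>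
    (hφ l).2 (squeeze_zero (fun n => norm_nonneg _) hl tendsto_one_div_add_atTop_nhds_zero_nat)
  have hz' : ∀ l l' : L, (∀ n : ℕ, ‖ev n l - ev n l'‖ ≤ 1 / ((n : ℝ) + 1)) → φ l = φ l' := by
    intro l l' h
    rw [← sub_eq_zero, ← map_sub]
    exact hz _ fun n => by rw [map_sub]; exact h n
  obtain ⟨σ, hσ⟩ := hmk (fun _ => s) ‖s‖ (fun _ => le_rfl)
  have hσs : star σ = σ := hinj _ _ fun n => by rw [map_star, hσ, hs]
  have hτ0 : ∀ (j : ℕ) (c : Fin 4) (i : ℕ), ∃ l : L, ∀ n, ev n l =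
      if j < 2 ^ N then T n j c i else 0 := by
    intro j c i
    refine hmk _ (max C 0) fun n => ?_
    split_ifs with hj
    · exact ((hT n j hj).1.1 c i).trans (le_max_left _ _)
    · rw [norm_zero]; exact le_max_right _ _
  choose τ hτ using hτ0
  have hpos : ∀ n : ℕ, (0 : ℝ) ≤ 1 / ((n : ℝ) + 1) := fun n => by positivity
  -- the relations
  have c1 : ∀ j c i, φ (τ j c i) * φ σ = φ σ * φ (τ j c i) := by
    intro j c i
    rw [← map_mul, ← map_mul]
    refine hz' _ _ fun n => ?_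
    rw [map_mul, map_mul, hτ, hσ]
    split_ifs with hj
    · exact (hT n j hj).1.2.2.2.1 s (Finset.mem_singleton_self s) c i
    · rw [zero_mul, mul_zero, sub_self, norm_zero]; exact hpos n
  have hsφ : star (φ σ) = φ σ := by rw [← map_star, hσs]
  have c1' : ∀ j c i, star (φ (τ j c i)) * φ σ = φ σ * star (φ (τ j c i)) := by
    intro j c i
    have := congrArg star (c1 j c i)
    rw [star_mul, star_mul, hsφ] at this
    exact this.symm
  have c2 : ∀ j l, l < j → ∀ c i c' i', φ (τ j c i) * φ (τ l c' i') =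
      φ (τ l c' i') * φ (τ j c i) := by
    intro j l hl c i c' i'
    rw [← map_mul, ← map_mul]
    refine hz' _ _ fun n => ?_
    rw [map_mul, map_mul, hτ, hτ]
    by_cases hj : j < 2 ^ N
    · rw [if_pos hj, if_pos (hl.trans hj)]
      exact ((hT n j hj).2 l hl c i c' i').1
    · rw [if_neg hj, zero_mul, mul_zero, sub_self, norm_zero]; exact hpos n
  have c3 : ∀ j l, l < j → ∀ c i c' i', φ (τ j c i) * star (φ (τ l c' i')) =
      star (φ (τ l c' i')) * φ (τ j c i) := by
    intro j l hl c i c' i'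
    rw [← map_star, ← map_mul, ← map_mul]
    refine hz' _ _ fun n => ?_
    rw [map_mul, map_mul, map_star, hτ, hτ]
    by_cases hj : j < 2 ^ N
    · rw [if_pos hj, if_pos (hl.trans hj)]
      exact ((hT n j hj).2 l hl c i c' i').2
    · rw [if_neg hj, zero_mul, mul_zero, sub_self, norm_zero]; exact hpos n
  let G : ℕ → Set Q := fun j => {x | x = φ σ ∨ ∃ c i, x = φ (τ j c i) ∨ x = star (φ (τ j c i))}
  have hcomm : ∀ j l, l < j → ∀ x ∈ G j, ∀ y ∈ G l, x * y = y * x := by
    rintro j l hl x (rfl | ⟨c, i, rfl | rfl⟩) y (rfl | ⟨c', i', rfl | rfl⟩)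
    · rfl
    · exact (c1 _ _ _).symm
    · exact (c1' _ _ _).symm
    · exact c1 _ _ _
    · exact c2 j l hl _ _ _ _
    · exact c3 j l hl _ _ _ _
    · exact c1' _ _ _
    · have := congrArg star (c3 j l hl c i c' i')
      rw [star_mul, star_mul, star_star] at this
      exact this.symm
    · have := congrArg star (c2 j l hl c i c' i')
      rw [star_mul, star_mul] at this
      exact this.symm
  have hD : ∀ j i, star (φ (τ j 1 i)) = φ (τ j 1 i) := by
    intro j i
    rw [← map_star]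
    congr 1
    refine hinj _ _ fun n => ?_
    rw [map_star, hτ]
    split_ifs with hj
    · exact (hT n j hj).1.2.2.1 i
    · exact star_zero _
  obtain ⟨b₁, b₂, hb1, hb2, hb12, hc1, hc2, hI1, hI2⟩ :=
    @orth_of_copies Q i1 i2 i3 (φ σ) hsφ N G (fun j => Or.inl rfl)
      (by
        rintro j x (rfl | ⟨c, i, rfl | rfl⟩)
        · exact Or.inl hsφ
        · exact Or.inr ⟨c, i, Or.inr rfl⟩
        · exact Or.inr ⟨c, i, Or.inl (star_star _)⟩)
      (by
        intro j l hjl x hx y hy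
        rcases lt_or_gt_of_ne hjl with h | h
        · exact (hcomm l j h y hy x hx).symm
        · exact hcomm j l h x hx y hy)
      (fun j i => φ (τ j 1 i)) (fun j i => Or.inr ⟨1, i, Or.inl rfl⟩) hD
      (by
        intro j hj
        refine ⟨fun i => φ (τ j 0 i), fun i => φ (τ j 2 i), fun i => φ (τ j 3 i), fun i =>
          ⟨Or.inr ⟨0, i, Or.inl rfl⟩, Or.inr ⟨2, i, Or.inl rfl⟩, Or.inr ⟨3, i, Or.inl rfl⟩⟩, ?_⟩
        have h2 : φ ((∑ i ∈ Finset.range (N + 1),
            τ j 0 i * (τ j 1 i * τ j 2 i - τ j 2 i * τ j 1 i) * τ j 3 i) * σ) = φ σ := by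
          refine hz' _ _ fun n => ?_
          rw [map_mul, map_sum]
          simp only [map_mul, map_sub, hτ, hσ, if_pos hj]
          exact (hT n j hj).1.2.2.2.2 s (Finset.mem_singleton_self s)
        rw [map_mul, map_sum, Finset.sum_range] at h2
        simp only [map_mul, map_sub] at h2
        rw [← mul_assoc, h2])
      (δ / 2) (half_pos hδ)
  exact lift_main ev φ hφs hφ hs hσ hσs hδ hb1 hb2 hb12 hc1 hc2 hI1 hI2

end

section

variable {A : Type u} [NonUnitalCStarAlgebra A]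

/-- the coordinates of a bounded sequence -/
noncomputable def evl (n : ℕ) : lp (fun _ : ℕ => A) ∞ →⋆ₙₐ[ℂ] A where
  toFun f := f n
  map_smul' c f := by rw [lp.coeFn_smul]; rfl
  map_zero' := by rw [lp.coeFn_zero]; rfl
  map_add' f g := by rw [lp.coeFn_add]; rfl
  map_mul' f g := lp_mul_apply f g n
  map_star' f := lp.star_apply f n

theorem evl_apply (n : ℕ) (f : lp (fun _ : ℕ => A) ∞) : evl n f = f n := rfl

variable [PartialOrder A] [StarOrderedRing A]

/-- If the central sequence algebra of `A` has no characters, then every hereditary subalgebra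
contains two orthogonal elements each of which generates a large ideal. -/
theorem twoOrth_of_noCentralChar (hA : NoCentralChar A) : Vale.Agent.P133.R2.H28.TwoOrth A := by
  intro a ha δ hδ
  have hs : star (CFC.sqrt a) = CFC.sqrt a :=
    (IsSelfAdjoint.of_nonneg (CFC.sqrt_nonneg a)).star_eq
  have h := @main_abs A (lp (fun _ : ℕ => A) ∞) _ _ _ _ (CStarAlgebra.spectralOrder _)
    (CStarAlgebra.spectralOrderedRing _) evl
    (fun f C hf => ⟨⟨f, memℓp_infty ⟨C, by rintro _ ⟨n, rfl⟩; exact hf n⟩⟩, fun n => rfl⟩)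
    (fun l l' h => by
      ext n
      exact h n) hA (CFC.sqrt a) hs δ hδ
  rw [CFC.sqrt_mul_sqrt_self a ha] at h
  exact h

end

end Vale.Agent.P133.R2.H354
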