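import Vale.Agent.P133.R2.H307.Spec
import Vale.Agent.P133.R2.H28.Conv
import Vale.Agent.P133.H681.Full

/-!
P133 (helper354): hereditary subalgebras of simple weakly purely infinite algebras are infinite
dimensional (row I of helper307).
-/

open scoped ComplexOrder

namespace Vale.Agent.P133.R2.H354

open Vale.Agent.P133 Vale.Agent.P133.H832 Vale.Agent.P133.H681 Vale.Agent.P133.Statement
  Vale.Agent.P133.R2.H28 Vale.Agent.P133.R2.H307

universe u

section

variable {B : Type u} [NonUnitalCStarAlgebra B]

theorem eq_zero_of_inId_zero {c : B} (h : InId 0 c) : c = 0 := by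
  rw [← norm_le_zero_iff]
  refine le_of_forall_pos_lt_add fun ε hε => ?_
  obtain ⟨m, r, s, h1⟩ := h ε hε
  simp only [mul_zero, zero_mul, Finset.sum_const_zero, zero_sub, norm_neg] at h1
  linarith

theorem eq_zero_of_her {a x z : B} (ha : star a = a) (hx : star x = x)
    (hxa : x ∈ closure (Set.range fun w => a * w * a)) {c : ℝ} (hc : c ≠ 0)
    (hxz : x * z = c • (x * x)) (h : a * z * a * a = 0) : x = 0 := by
  have hc1 : IsClosed {y : B | y * z * (a * a) = 0} := isClosed_eq (by fun_prop) (by fun_prop)
  have h1 : x * z * (a * a) = 0 := by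
    refine closure_minimal ?_ hc1 hxa
    rintro _ ⟨w, rfl⟩
    show a * w * a * z * (a * a) = 0
    calc _ = a * w * (a * z * a * a) := by simp only [mul_assoc]
      _ = 0 := by rw [h, mul_zero]
  rw [hxz, smul_mul_assoc] at h1
  have h2 : x * x * (a * a) = 0 := (smul_eq_zero.1 h1).resolve_left hc
  have h3 : x * x * a = 0 := by
    rw [← norm_eq_zero, ← mul_self_eq_zero, ← CStarRing.norm_self_mul_star, star_mul, star_mul,
      hx, ha]
    have : x * x * a * (a * (x * x)) = x * x * (a * a) * (x * x) := by simp only [mul_assoc]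
    rw [this, h2, zero_mul, norm_zero]
  have hc2 : IsClosed {y : B | x * x * y = 0} := isClosed_eq (by fun_prop) (by fun_prop)
  have h4 : x * x * x = 0 := by
    refine closure_minimal ?_ hc2 hxa
    rintro _ ⟨w, rfl⟩
    show x * x * (a * w * a) = 0
    calc _ = x * x * a * (w * a) := by simp only [mul_assoc]
      _ = 0 := by rw [h3, zero_mul]
  have h5 : x * x = 0 := by
    rw [← norm_eq_zero, ← mul_self_eq_zero, ← CStarRing.norm_self_mul_star, star_mul, hx,
      ← mul_assoc, h4, zero_mul, norm_zero]
  rw [← norm_eq_zero, ← mul_self_eq_zero, ← CStarRing.norm_self_mul_star, hx, h5, norm_zero]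

end

theorem specInf : SpecInf.{u} := by
  intro B _ _ _ hW hS a ha ha0 S hSf
  have hsimp : IsSimpleC B := by
    intro x b hx ε hε
    obtain ⟨I, hI, hI'⟩ := isClosedIdeal_inId x
    rcases hS I hI with h | h
    · have h1 : x ∈ I := (hI' x).2 (InId.refl x)
      rw [h, Submodule.mem_bot] at h1
      exact absurd h1 hx
    · have h1 : b ∈ I := by rw [h]; exact Submodule.mem_top
      exact (hI' b).1 h1 ε hε
  have hT : TwoOrth B := twoOrth_of_eltPI (wpi_simple hsimp hW)
  have hna : 0 < ‖a‖ := norm_pos_iff.2 ha0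
  have has : star a = a := (IsSelfAdjoint.of_nonneg ha).star_eq
  obtain ⟨x, hx, ho, hxa, hxI⟩ := iter hT (Module.finrank ℝ S) a ha (‖a‖ / 2) (half_pos hna)
  have hx0 : ∀ i, x i ≠ 0 := by
    intro i hi
    have h1 := hxI i
    rw [hi] at h1
    have h2 := eq_zero_of_inId_zero h1
    have h3 := norm_cut_sub_le ha (half_pos hna)
    rw [h2, zero_sub, norm_neg] at h3
    linarith
  have hxs : ∀ i, star (x i) = x i := fun i => (IsSelfAdjoint.of_nonneg (hx i)).star_eq
  by_contra hcon
  push Not at hcon
  have hmem : ∀ c : Mult (Module.finrank ℝ S) → ℝ, a * (∑ i, c i • x i) * a * a ∈ S := by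
    intro c
    refine hcon _ ?_
    rw [IsSelfAdjoint, star_sum]
    refine Finset.sum_congr rfl fun i _ => ?_
    rw [star_smul, hxs, star_trivial]
  let f : (Mult (Module.finrank ℝ S) → ℝ) →ₗ[ℝ] S :=
    { toFun := fun c => ⟨_, hmem c⟩
      map_add' := fun c d => Subtype.ext (by
        simp only [Pi.add_apply, add_smul, Finset.sum_add_distrib, mul_add, add_mul,
          Submodule.coe_add])
      map_smul' := fun r c => Subtype.ext (by
        simp only [Pi.smul_apply, smul_eq_mul, mul_smul, ← Finset.smul_sum, mul_smul_comm,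
          smul_mul_assoc, RingHom.id_apply, Submodule.coe_smul]) }
  have hf : Function.Injective f := by
    rw [injective_iff_map_eq_zero]
    intro c hc
    have h1 : a * (∑ i, c i • x i) * a * a = 0 := congrArg Subtype.val hc
    funext j
    by_contra hj
    refine hx0 j (eq_zero_of_her has (hxs j) (hxa j) hj ?_ h1)
    rw [Finset.mul_sum, Finset.sum_eq_single j]
    · rw [mul_smul_comm]
    · intro i _ hij
      rw [mul_smul_comm, ho j i (Ne.symm hij), smul_zero]
    · intro h; exact absurd (Finset.mem_univ j) h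
  have h1 := LinearMap.finrank_le_finrank_of_injective hf
  rw [Module.finrank_fintype_fun_eq_card, Mult.card] at h1
  exact absurd h1 (not_le.2 Nat.lt_two_pow_self)

end Vale.Agent.P133.R2.H354
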