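import Vale.Agent.P133.R2.H354.Defs
import Mathlib.Tactic

/-!
P133 (helper354): approximately central families of elements; many commuting copies.
-/

open scoped ComplexOrder

namespace Vale.Agent.P133.R2.H354

universe u

section

variable {A : Type u} [NonUnitalCStarAlgebra A]

/-- the property of one copy -/
def OneCopy (N : ℕ) (C : ℝ) (F : Finset A) (ε : ℝ) (t : Fin 4 → ℕ → A) : Prop :=
  (∀ c i, ‖t c i‖ ≤ C) ∧ (∀ c i, N < i → t c i = 0) ∧ (∀ i, star (t 1 i) = t 1 i) ∧
    (∀ f ∈ F, ∀ c i, ‖t c i * f - f * t c i‖ ≤ ε) ∧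
    ∀ f ∈ F, ‖(∑ i ∈ Finset.range (N + 1),
      t 0 i * (t 1 i * t 2 i - t 2 i * t 1 i) * t 3 i) * f - f‖ ≤ ε

/-- extension of a finite family by zero -/
def ext {m : ℕ} (x : Fin m → A) (i : ℕ) : A := if h : i < m then x ⟨i, h⟩ else 0

theorem ext_norm {m : ℕ} {x : Fin m → A} {C : ℝ} (hC : 0 ≤ C) (h : ∀ i, ‖x i‖ ≤ C) (i : ℕ) :
    ‖ext x i‖ ≤ C := by
  unfold ext
  split_ifs with hi
  · exact h _
  · rw [norm_zero]; exact hC

theorem ext_comm {m : ℕ} {x : Fin m → A} {f : A} {ε : ℝ} (hε : 0 ≤ ε)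
    (h : ∀ i, ‖x i * f - f * x i‖ ≤ ε) (i : ℕ) : ‖ext x i * f - f * ext x i‖ ≤ ε := by
  unfold ext
  split_ifs with hi
  · exact h _
  · rw [zero_mul, mul_zero, sub_self, norm_zero]; exact hε

theorem one_copy (hA : NoCentralChar A) : ∃ (N : ℕ) (C : ℝ), ∀ (F : Finset A) (ε : ℝ),
    0 < ε → ∃ t : Fin 4 → ℕ → A, OneCopy N C F ε t := by
  classical
  obtain ⟨m, C₀, h⟩ := hA
  refine ⟨m + m, |C₀|, fun F ε hε => ?_⟩
  obtain ⟨x, p, q, y, h1, h2, h3⟩ := h (F ∪ F.image star) ε hε
  have hC : ∀ {r : ℝ}, r ≤ C₀ → r ≤ |C₀| := fun hr => hr.trans (le_abs_self _)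
  have hC0 : 0 ≤ |C₀| := abs_nonneg _
  have hF : ∀ f ∈ F, f ∈ F ∪ F.image star := fun f hf => Finset.mem_union_left _ hf
  have hFs : ∀ f ∈ F, star f ∈ F ∪ F.image star := fun f hf =>
    Finset.mem_union_right _ (Finset.mem_image_of_mem _ hf)
  have hps : ∀ f ∈ F, ∀ i, ‖star (p i) * f - f * star (p i)‖ ≤ ε := by
    intro f hf i
    have h4 := (h2 _ (hFs f hf) i).2.1
    rw [← norm_star, star_sub, star_mul, star_mul, star_star] at h4
    rwa [← norm_neg, neg_sub]
  set re : Fin m → A := fun i => (1 / 2 : ℂ) • (p i + star (p i)) with hre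
  set im : Fin m → A := fun i => (Complex.I / 2 : ℂ) • (star (p i) - p i) with him
  have hres : ∀ i, star (re i) = re i := fun i => by
    simp only [hre, star_smul, star_add, star_star]
    rw [add_comm (star (p i))]
    congr 1
    simp
  have hims : ∀ i, star (im i) = im i := fun i => by
    simp only [him, star_smul, star_sub, star_star]
    have : star (Complex.I / 2 : ℂ) = -(Complex.I / 2) := by simp [neg_div]
    rw [this, neg_smul, ← smul_neg, neg_sub]
  have hren : ∀ i, ‖re i‖ ≤ |C₀| := fun i => by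
    have h4 : ‖p i‖ ≤ |C₀| := hC (h1 i).2.1
    calc ‖re i‖ = 1 / 2 * ‖p i + star (p i)‖ := by simp only [hre, norm_smul]; norm_num
      _ ≤ 1 / 2 * (‖p i‖ + ‖star (p i)‖) := by gcongr; exact norm_add_le _ _
      _ ≤ |C₀| := by rw [norm_star]; linarith
  have himn : ∀ i, ‖im i‖ ≤ |C₀| := fun i => by
    have h4 : ‖p i‖ ≤ |C₀| := hC (h1 i).2.1
    calc ‖im i‖ = 1 / 2 * ‖star (p i) - p i‖ := by simp only [him, norm_smul]; norm_num
      _ ≤ 1 / 2 * (‖star (p i)‖ + ‖p i‖) := by gcongr; exact norm_sub_le _ _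
      _ ≤ |C₀| := by rw [norm_star]; linarith
  have hrec : ∀ f ∈ F, ∀ i, ‖re i * f - f * re i‖ ≤ ε := fun f hf i => by
    have e : re i * f - f * re i = (1 / 2 : ℂ) • ((p i * f - f * p i) +
        (star (p i) * f - f * star (p i))) := by
      simp only [hre, smul_mul_assoc, mul_smul_comm, ← smul_sub]
      congr 1
      rw [add_mul, mul_add]
      abel
    rw [e, norm_smul]
    have h4 := (h2 _ (hF f hf) i).2.1
    have h5 := hps f hf i
    calc _ ≤ ‖(1 / 2 : ℂ)‖ * (ε + ε) := by gcongr; exact (norm_add_le _ _).trans (add_le_add h4 h5)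
      _ = ε := by norm_num; ring
  have himc : ∀ f ∈ F, ∀ i, ‖im i * f - f * im i‖ ≤ ε := fun f hf i => by
    have e : im i * f - f * im i = (Complex.I / 2 : ℂ) • ((star (p i) * f - f * star (p i)) -
        (p i * f - f * p i)) := by
      simp only [him, smul_mul_assoc, mul_smul_comm, ← smul_sub]
      congr 1
      rw [sub_mul, mul_sub]
      abel
    rw [e, norm_smul]
    have h4 := (h2 _ (hF f hf) i).2.1
    have h5 := hps f hf i
    calc _ ≤ ‖(Complex.I / 2 : ℂ)‖ * (ε + ε) := by
          gcongr; exact (norm_sub_le _ _).trans (add_le_add h5 h4)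
      _ = ε := by norm_num; ring
  set xI : Fin m → A := fun i => Complex.I • x i with hxI
  have hxIn : ∀ i, ‖xI i‖ ≤ |C₀| := fun i => by
    simp only [hxI, norm_smul, Complex.norm_I, one_mul]
    exact hC (h1 i).1
  have hxIc : ∀ f ∈ F, ∀ i, ‖xI i * f - f * xI i‖ ≤ ε := fun f hf i => by
    simp only [hxI, smul_mul_assoc, mul_smul_comm, ← smul_sub, norm_smul, Complex.norm_I, one_mul]
    exact (h2 _ (hF f hf) i).1
  let pr : (Fin m → A) → (Fin m → A) → ℕ → A := fun u v i =>
    if i < m then ext u i else ext v (i - m)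
  have hprn : ∀ {u v : Fin m → A}, (∀ i, ‖u i‖ ≤ |C₀|) → (∀ i, ‖v i‖ ≤ |C₀|) →
      ∀ i, ‖pr u v i‖ ≤ |C₀| := by
    intro u v hu hv i
    simp only [pr]
    split_ifs
    · exact ext_norm hC0 hu i
    · exact ext_norm hC0 hv _
  have hprc : ∀ {u v : Fin m → A} {f : A}, (∀ i, ‖u i * f - f * u i‖ ≤ ε) →
      (∀ i, ‖v i * f - f * v i‖ ≤ ε) → ∀ i, ‖pr u v i * f - f * pr u v i‖ ≤ ε := by
    intro u v f hu hv i
    simp only [pr]
    split_ifs
    · exact ext_comm hε.le hu i
    · exact ext_comm hε.le hv _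
  have hprz : ∀ {u v : Fin m → A} (i : ℕ), m + m < i → pr u v i = 0 := by
    intro u v i hi
    simp only [pr, ext]
    rw [if_neg (by omega), dif_neg (by omega)]
  refine ⟨![pr x xI, pr re im, pr q q, pr y y], ?_, ?_, ?_, ?_, ?_⟩
  · intro c i
    fin_cases c
    · exact hprn (fun i => hC (h1 i).1) hxIn i
    · exact hprn hren himn i
    · exact hprn (fun i => hC (h1 i).2.2.1) (fun i => hC (h1 i).2.2.1) i
    · exact hprn (fun i => hC (h1 i).2.2.2) (fun i => hC (h1 i).2.2.2) i
  · intro c i hi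
    fin_cases c <;> exact hprz i hi
  · intro i
    change star (pr re im i) = pr re im i
    simp only [pr, ext]
    split_ifs
    · exact hres _
    · exact hims _
    · exact star_zero _
  · intro f hf c i
    fin_cases c
    · exact hprc (fun i => (h2 _ (hF f hf) i).1) (hxIc f hf) i
    · exact hprc (hrec f hf) (himc f hf) i
    · exact hprc (fun i => (h2 _ (hF f hf) i).2.2.1) (fun i => (h2 _ (hF f hf) i).2.2.1) i
    · exact hprc (fun i => (h2 _ (hF f hf) i).2.2.2) (fun i => (h2 _ (hF f hf) i).2.2.2) i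
  · intro f hf
    have hsum : (∑ i ∈ Finset.range (m + m + 1),
        pr x xI i * (pr re im i * pr q q i - pr q q i * pr re im i) * pr y y i) =
        ∑ i, x i * (p i * q i - q i * p i) * y i := by
      rw [Finset.sum_range_succ, Finset.sum_range_add]
      have e1 : pr x xI (m + m) * (pr re im (m + m) * pr q q (m + m) -
          pr q q (m + m) * pr re im (m + m)) * pr y y (m + m) = 0 := by
        have : pr y y (m + m) = 0 := by
          simp only [pr, ext]
          rcases Nat.eq_zero_or_pos m with rfl | hm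
          · rfl
          · rw [if_neg (by omega), dif_neg (by omega)]
        rw [this, mul_zero]
      rw [e1, add_zero, Finset.sum_range, Finset.sum_range, ← Finset.sum_add_distrib]
      refine Finset.sum_congr rfl fun i _ => ?_
      have hi : (i : ℕ) < m := i.2
      have hi' : ¬ (m + (i : ℕ) < m) := by omega
      have hi2 : m + (i : ℕ) - m < m := by omega
      have hfin : (⟨m + (i : ℕ) - m, hi2⟩ : Fin m) = i := Fin.ext (by simp)
      simp only [pr, ext, if_pos hi, dif_pos hi, if_neg hi', dif_pos hi2, hfin, Fin.eta]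
      simp only [hre, him, hxI]
      have e2 : p i = (1 / 2 : ℂ) • (p i + star (p i)) +
          Complex.I • ((Complex.I / 2 : ℂ) • (star (p i) - p i)) := by
        rw [smul_smul]
        have : Complex.I * (Complex.I / 2) = -(1 / 2 : ℂ) := by
          rw [mul_div_assoc', Complex.I_mul_I]; norm_num
        rw [this, smul_add, smul_sub, neg_smul, neg_smul]
        have : p i = (1 / 2 : ℂ) • p i + (1 / 2 : ℂ) • p i := by
          rw [← add_smul]; norm_num
        nth_rewrite 1 [this]
        abel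
      set R := (1 / 2 : ℂ) • (p i + star (p i))
      set J := (Complex.I / 2 : ℂ) • (star (p i) - p i)
      rw [e2]
      simp only [smul_mul_assoc, mul_smul_comm, mul_add, add_mul, mul_sub, sub_mul]
      abel
    change ‖(∑ i ∈ Finset.range (m + m + 1),
      pr x xI i * (pr re im i * pr q q i - pr q q i * pr re im i) * pr y y i) * f - f‖ ≤ ε
    rw [hsum]
    exact h3 f (hF f hf)

/-- many commuting copies -/
theorem many_copies {N : ℕ} {C : ℝ} (h : ∀ (F : Finset A) (ε : ℝ), 0 < ε →
    ∃ t : Fin 4 → ℕ → A, OneCopy N C F ε t) (F : Finset A) {ε : ℝ} (hε : 0 < ε) (K : ℕ) :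
    ∃ T : ℕ → Fin 4 → ℕ → A, ∀ j < K, OneCopy N C F ε (T j) ∧ ∀ l < j, ∀ c i c' i',
      ‖T j c i * T l c' i' - T l c' i' * T j c i‖ ≤ ε ∧
      ‖T j c i * star (T l c' i') - star (T l c' i') * T j c i‖ ≤ ε := by
  classical
  induction K with
  | zero => exact ⟨fun _ _ _ => 0, fun j hj => absurd hj (Nat.not_lt_zero j)⟩
  | succ K ih =>
    obtain ⟨T, hT⟩ := ih
    set F₁ : Finset A := ((Finset.range K) ×ˢ ((Finset.univ : Finset (Fin 4)) ×ˢ
      Finset.range (N + 1))).image (fun z => T z.1 z.2.1 z.2.2) with hF₁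
    obtain ⟨t, h1, h2, h3, h4, h5⟩ := h (F ∪ (F₁ ∪ F₁.image star)) ε hε
    refine ⟨fun j => if j = K then t else T j, fun j hj => ?_⟩
    rcases Nat.lt_succ_iff_lt_or_eq.1 hj with hj | rfl
    · obtain ⟨h6, h7⟩ := hT j hj
      refine ⟨?_, fun l hl c i c' i' => ?_⟩
      · simp only [if_neg hj.ne]
        exact h6
      · simp only [if_neg hj.ne, if_neg (hl.trans hj).ne]
        exact h7 l hl c i c' i'
    · refine ⟨?_, fun l hl c i c' i' => ?_⟩
      · simp only [if_true]
        exact ⟨h1, h2, h3, fun f hf => h4 f (Finset.mem_union_left _ hf),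
          fun f hf => h5 f (Finset.mem_union_left _ hf)⟩
      · simp only [if_true, if_neg hl.ne]
        by_cases hi' : i' ≤ N
        · have hm : T l c' i' ∈ F₁ := by
            rw [hF₁]
            exact Finset.mem_image.2 ⟨(l, c', i'), by
              simp only [Finset.mem_product, Finset.mem_range, Finset.mem_univ, true_and]
              exact ⟨hl, by omega⟩, rfl⟩
          exact ⟨h4 _ (Finset.mem_union_right _ (Finset.mem_union_left _ hm)) c i,
            h4 _ (Finset.mem_union_right _ (Finset.mem_union_right _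
              (Finset.mem_image_of_mem _ hm))) c i⟩
        · have h0 : T l c' i' = 0 := (hT l hl).1.2.1 c' i' (by omega)
          rw [h0, star_zero, mul_zero, zero_mul, sub_self, norm_zero]
          exact ⟨hε.le, hε.le⟩

end

end Vale.Agent.P133.R2.H354
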