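import Vale.Agent.P133.R2.H354.Sub
import Vale.Agent.P133.R2.H354.Loc
import Vale.Agent.P133.H832.LInf

/-!
P133 (helper354): no central characters give two orthogonal elements, each generating the ideal.
-/

open scoped ComplexOrder ENNReal

namespace Vale.Agent.P133.R2.H354

open Vale.Agent.P133 Vale.Agent.P133.H832 Filter

universe u

section

variable {A L : Type u} [NonUnitalCStarAlgebra A] [NonUnitalCStarAlgebra L]

/-- the ideal of the sequences which tend to zero -/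
theorem null_ideal (ev : ℕ → L →⋆ₙₐ[ℂ] A) (hev : ∀ n l, ‖ev n l‖ ≤ ‖l‖) :
    ∃ J : Submodule ℂ L, IsClosedIdeal J ∧
      ∀ l, l ∈ J ↔ Tendsto (fun n => ‖ev n l‖) atTop (nhds 0) := by
  let J : Submodule ℂ L :=
    { carrier := {l | Tendsto (fun n => ‖ev n l‖) atTop (nhds 0)}
      zero_mem' := by simp
      add_mem' := by
        intro x y hx hy
        have h1 := hx.add hy
        rw [add_zero] at h1
        refine squeeze_zero (fun n => norm_nonneg _) (fun n => ?_) h1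
        rw [map_add]
        exact norm_add_le _ _
      smul_mem' := by
        intro c x hx
        have h1 := hx.const_mul ‖c‖
        rw [mul_zero] at h1
        refine squeeze_zero (fun n => norm_nonneg _) (fun n => ?_) h1
        rw [map_smul, norm_smul] }
  refine ⟨J, ⟨?_, fun a x hx => ⟨?_, ?_⟩⟩, fun l => Iff.rfl⟩
  · rw [← isSeqClosed_iff_isClosed]
    intro u l hu hul
    refine Metric.tendsto_atTop.2 fun ε hε => ?_
    obtain ⟨k, hk⟩ := (Metric.tendsto_atTop.1 hul) (ε / 2) (by positivity)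
    obtain ⟨n₀, hn₀⟩ := (Metric.tendsto_atTop.1 (hu k)) (ε / 2) (by positivity)
    refine ⟨n₀, fun n hn => ?_⟩
    have h1 := hn₀ n hn
    rw [Real.dist_0_eq_abs, abs_of_nonneg (norm_nonneg _)] at h1 ⊢
    have h2 := hk k le_rfl
    rw [dist_eq_norm] at h2
    have h3 : ev n l = ev n (u k) - ev n (u k - l) := by rw [map_sub, sub_sub_cancel]
    calc ‖ev n l‖ ≤ ‖ev n (u k)‖ + ‖ev n (u k - l)‖ := by rw [h3]; exact norm_sub_le _ _
      _ < ε / 2 + ε / 2 := add_lt_add_of_lt_of_le h1 ((hev n _).trans h2.le)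
      _ = ε := by ring
  · have h1 := hx.const_mul ‖a‖
    rw [mul_zero] at h1
    refine squeeze_zero (fun n => norm_nonneg _) (fun n => ?_) h1
    rw [map_mul]
    exact (norm_mul_le _ _).trans (mul_le_mul_of_nonneg_right (hev n a) (norm_nonneg _))
  · have h1 := hx.mul_const ‖a‖
    rw [zero_mul] at h1
    refine squeeze_zero (fun n => norm_nonneg _) (fun n => ?_) h1
    rw [map_mul]
    exact (norm_mul_le _ _).trans (mul_le_mul_of_nonneg_left (hev n a) (norm_nonneg _))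

end

section

variable {A : Type u} [NonUnitalCStarAlgebra A] [PartialOrder A] [StarOrderedRing A]

theorem norm_sub_cut_le {c : A} (hc : 0 ≤ c) {ε : ℝ} (hε : 0 ≤ ε) :
    ‖c - cfcₙ (fun t : ℝ => max (t - ε) 0) c‖ ≤ ε := by
  have hs : IsSelfAdjoint c := IsSelfAdjoint.of_nonneg hc
  have hf0 : (fun t : ℝ => max (t - ε) 0) 0 = 0 := by
    simp only [zero_sub]; exact max_eq_right (by linarith)
  have h1 : c - cfcₙ (fun t : ℝ => max (t - ε) 0) c = cfcₙ (fun t : ℝ => t - max (t - ε) 0) c := by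
    rw [cfcₙ_sub (fun t : ℝ => t) (fun t : ℝ => max (t - ε) 0) c (by fun_prop) rfl (by fun_prop)
      hf0, cfcₙ_id' ℝ c]
  rw [h1]
  refine norm_cfcₙ_le fun t ht => ?_
  have ht0 : 0 ≤ t := quasispectrum_nonneg_of_nonneg c hc t ht
  rw [Real.norm_eq_abs, abs_le]
  rcases le_total t ε with h | h
  · rw [max_eq_right (by linarith)]; constructor <;> linarith
  · rw [max_eq_left (by linarith)]; constructor <;> linarith

variable {L Q : Type u} [NonUnitalCStarAlgebra L] [PartialOrder L] [StarOrderedRing L]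
  [NonUnitalCStarAlgebra Q] [PartialOrder Q] [StarOrderedRing Q]

theorem map_nonneg' (φ : L →⋆ₙₐ[ℂ] Q) {b : L} (hb : 0 ≤ b) : 0 ≤ φ b := by
  obtain ⟨r, rfl⟩ := CStarAlgebra.nonneg_iff_eq_star_mul_self.1 hb
  rw [map_mul, map_star]
  exact star_mul_self_nonneg _

theorem map_cf (φ : L →⋆ₙₐ[ℂ] Q) {f : ℝ → ℝ} (hf : Continuous f) (hf0 : f 0 = 0) {b : L}
    (hb : IsSelfAdjoint b) : φ (cfcₙ f b) = cfcₙ f (φ b) :=
  NonUnitalStarAlgHomClass.map_cfcₙ φ f b (hf := hf.continuousOn) (hf₀ := hf0)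
    (hφ := map_continuous φ) (ha := hb) (hφa := by
      rw [IsSelfAdjoint, ← map_star, hb.star_eq])

/-- lifting of norm estimates -/
theorem norm_lift (ev : ℕ → L →⋆ₙₐ[ℂ] A) (φ : L →⋆ₙₐ[ℂ] Q)
    (hφ : ∀ l, φ l = 0 ↔ Tendsto (fun n => ‖ev n l‖) atTop (nhds 0)) {z : L} {ε : ℝ} (hε : 0 < ε)
    (hz : ‖φ z‖ < ε) : ∀ᶠ n in atTop, ‖ev n z‖ < 2 * ε := by
  have hf : Continuous (fun t : ℝ => max (t - ε ^ 2) 0) := by fun_prop
  have hf0 : (fun t : ℝ => max (t - ε ^ 2) 0) 0 = 0 := by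
    simp only [zero_sub]; exact max_eq_right (by nlinarith)
  set w : L := star z * z with hw
  have hw0 : 0 ≤ w := star_mul_self_nonneg z
  have h1 : φ (cfcₙ (fun t : ℝ => max (t - ε ^ 2) 0) w) = 0 := by
    rw [map_cf φ hf hf0 (IsSelfAdjoint.of_nonneg hw0), ← norm_le_zero_iff]
    refine norm_cfcₙ_le fun t ht => ?_
    have h3 : ‖t‖ ≤ ‖φ w‖ := by
      have := norm_apply_le_norm_cfcₙ (fun x : ℝ => x) (φ w) ht (by fun_prop) rfl
        (IsSelfAdjoint.of_nonneg (map_nonneg' φ hw0))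
      rwa [cfcₙ_id' ℝ (φ w) (IsSelfAdjoint.of_nonneg (map_nonneg' φ hw0))] at this
    have h4 : ‖φ w‖ ≤ ε ^ 2 := by
      rw [hw, map_mul, map_star, CStarRing.norm_star_mul_self]
      nlinarith [norm_nonneg (φ z)]
    have h5 : t ≤ ε ^ 2 := (le_abs_self t).trans (h3.trans h4)
    rw [max_eq_right (by linarith), norm_zero]
  have h2 := (hφ _).1 h1
  have h3 : ∀ᶠ n in atTop, ‖ev n (cfcₙ (fun t : ℝ => max (t - ε ^ 2) 0) w)‖ < ε ^ 2 :=
    h2.eventually (gt_mem_nhds (by positivity))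
  filter_upwards [h3] with n hn
  rw [map_cf (ev n) hf hf0 (IsSelfAdjoint.of_nonneg hw0)] at hn
  have h4 := norm_sub_cut_le (map_nonneg' (ev n) hw0) (sq_nonneg ε)
  have h5 : ‖ev n w‖ ≤ ε ^ 2 + ε ^ 2 := by
    calc ‖ev n w‖ = ‖(ev n w - cfcₙ (fun t : ℝ => max (t - ε ^ 2) 0) (ev n w)) +
        cfcₙ (fun t : ℝ => max (t - ε ^ 2) 0) (ev n w)‖ := by rw [sub_add_cancel]
      _ ≤ ε ^ 2 + ε ^ 2 := (norm_add_le _ _).trans (add_le_add h4 hn.le)
  rw [hw, map_mul, map_star, CStarRing.norm_star_mul_self] at h5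
  nlinarith [norm_nonneg (ev n z)]

/-- the lifting argument -/
theorem lift_main (ev : ℕ → L →⋆ₙₐ[ℂ] A) (φ : L →⋆ₙₐ[ℂ] Q) (hsurj : Function.Surjective φ)
    (hφ : ∀ l, φ l = 0 ↔ Tendsto (fun n => ‖ev n l‖) atTop (nhds 0)) {s : A} (hs : star s = s)
    {σ : L} (hσ : ∀ n, ev n σ = s) (hσs : star σ = σ) {δ : ℝ} (hδ : 0 < δ) {b₁ b₂ : Q} (h1 : 0 ≤ b₁)
    (h2 : 0 ≤ b₂) (h12 : b₁ * b₂ = 0) (hc1 : (φ σ * φ σ) * b₁ = b₁ * (φ σ * φ σ))
    (hc2 : (φ σ * φ σ) * b₂ = b₂ * (φ σ * φ σ))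
    (hI1 : InId ((φ σ * φ σ) * b₁ * (φ σ * φ σ))
      (cfcₙ (fun t : ℝ => max (t - δ / 2) 0) (φ σ * φ σ)))
    (hI2 : InId ((φ σ * φ σ) * b₂ * (φ σ * φ σ))
      (cfcₙ (fun t : ℝ => max (t - δ / 2) 0) (φ σ * φ σ))) :
    ∃ c₁ c₂ : A, 0 ≤ c₁ ∧ 0 ≤ c₂ ∧ c₁ * c₂ = 0 ∧
      c₁ ∈ closure (Set.range fun w => s * s * w * (s * s)) ∧
      c₂ ∈ closure (Set.range fun w => s * s * w * (s * s)) ∧
      InId c₁ (cfcₙ (fun t : ℝ => max (t - δ) 0) (s * s)) ∧
      InId c₂ (cfcₙ (fun t : ℝ => max (t - δ) 0) (s * s)) := by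
  have hsφ : star (φ σ) = φ σ := by rw [← map_star, hσs]
  set a : Q := φ σ * φ σ with ha
  have has : star a = a := by rw [ha, star_mul, hsφ]
  have ha0 : 0 ≤ a := by
    have := star_mul_self_nonneg (φ σ)
    rwa [hsφ] at this
  obtain ⟨β, hβ⟩ := hsurj (b₁ - b₂)
  set β' : L := (1 / 2 : ℂ) • (β + star β) with hβ'
  have hβs : star β' = β' := by
    simp only [hβ', star_smul, star_add, star_star]
    rw [add_comm (star β)]
    congr 1
    simp
  have hφβ : φ β' = b₁ - b₂ := by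
    have hss : star (b₁ - b₂) = b₁ - b₂ := by
      rw [star_sub, (IsSelfAdjoint.of_nonneg h1).star_eq, (IsSelfAdjoint.of_nonneg h2).star_eq]
    rw [hβ', map_smul, map_add, map_star, hβ, hss, ← two_smul ℂ, smul_smul]
    norm_num
  set η : L := σ * σ * β' * (σ * σ) with hη
  have hηs : IsSelfAdjoint η := by
    rw [IsSelfAdjoint, hη]
    simp only [star_mul, hσs, hβs, mul_assoc]
  have hφη : φ η = a * b₁ * a - a * b₂ * a := by
    rw [hη, map_mul, map_mul, map_mul, hφβ, ← ha, mul_sub, sub_mul]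
  have hp1 : 0 ≤ a * b₁ * a := by
    have := star_left_conjugate_nonneg h1 a
    rwa [has] at this
  have hp2 : 0 ≤ a * b₂ * a := by
    have := star_left_conjugate_nonneg h2 a
    rwa [has] at this
  have horth : a * b₁ * a * (a * b₂ * a) = 0 := by
    calc a * b₁ * a * (a * b₂ * a) = a * b₁ * a * (b₂ * a * a) := by rw [hc2]
      _ = a * (b₁ * (a * b₂)) * a * a := by simp only [mul_assoc]
      _ = a * (b₁ * (b₂ * a)) * a * a := by rw [hc2]
      _ = a * ((b₁ * b₂) * a) * a * a := by simp only [mul_assoc]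
      _ = 0 := by rw [h12, zero_mul, mul_zero, zero_mul, zero_mul]
  obtain ⟨hu1, hu2⟩ := CFC.posPart_negPart_unique hφη horth hp1 hp2
  have hfp : Continuous (fun t : ℝ => max t 0) := by fun_prop
  have hfn : Continuous (fun t : ℝ => max (-t) 0) := by fun_prop
  have hfp0 : (fun t : ℝ => max t 0) 0 = 0 := by simp
  have hfn0 : (fun t : ℝ => max (-t) 0) 0 = 0 := by simp
  have hpp : φ (cfcₙ (fun t : ℝ => max t 0) η) = a * b₁ * a := by
    rw [map_cf φ hfp hfp0 hηs, ← hu1, CFC.posPart_def]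
    rfl
  have hnn : φ (cfcₙ (fun t : ℝ => max (-t) 0) η) = a * b₂ * a := by
    rw [map_cf φ hfn hfn0 hηs, ← hu2, CFC.negPart_def]
    rfl
  have hδ4 : 0 < δ / 4 := by positivity
  have hcut0 : (fun t : ℝ => max (t - δ / 2) 0) 0 = 0 := by
    simp only [zero_sub]; exact max_eq_right (by linarith)
  have hcutc : Continuous (fun t : ℝ => max (t - δ / 2) 0) := by fun_prop
  have hσσ : IsSelfAdjoint (σ * σ) := by rw [IsSelfAdjoint, star_mul, hσs]
  have hss0 : (0 : A) ≤ s * s := by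
    have := star_mul_self_nonneg s
    rwa [hs] at this
  -- the key for both parts
  have key : ∀ (f : ℝ → ℝ) (_ : Continuous f) (_ : f 0 = 0) (b : Q)
      (_ : φ (cfcₙ f η) = a * b * a)
      (_ : InId (a * b * a) (cfcₙ (fun t : ℝ => max (t - δ / 2) 0) a)),
      ∀ᶠ n in atTop, InId (cfcₙ f (ev n η)) (cfcₙ (fun t : ℝ => max (t - δ) 0) (s * s)) := by
    intro f hf hf0 b hb hI
    obtain ⟨m, r, t, h3⟩ := hI (δ / 4) hδ4
    choose ρ hρ using fun k => hsurj (r k)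
    choose τ hτ using fun k => hsurj (t k)
    have h4 : ‖φ (∑ k, ρ k * cfcₙ f η * τ k - cfcₙ (fun t : ℝ => max (t - δ / 2) 0) (σ * σ))‖ <
        δ / 4 := by
      rw [map_sub, map_sum, map_cf φ hcutc hcut0 hσσ]
      simp only [map_mul, hρ, hτ, hb, ← ha]
      exact h3
    filter_upwards [norm_lift ev φ hφ hδ4 h4] with n hn
    rw [map_sub, map_sum, map_cf (ev n) hcutc hcut0 hσσ] at hn
    simp only [map_mul, map_cf (ev n) hf hf0 hηs, hσ] at hn
    obtain ⟨I, hI, hI'⟩ := isClosedIdeal_inId (cfcₙ f (ev n η))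
    have hy : ∑ k, ev n (ρ k) * cfcₙ f (ev n η) * ev n (τ k) ∈ I :=
      Submodule.sum_mem _ fun k _ => (hI.2 _ _ (hI.2 _ _ ((hI' _).2 (InId.refl _))).1).2
    have hc0 : (0 : A) ≤ cfcₙ (fun t : ℝ => max (t - δ / 2) 0) (s * s) :=
      cfcₙ_nonneg fun t _ => le_max_right _ _
    have h5 := hI.cut_mem hc0 hy (s := δ / 2) (by
      rw [← norm_neg, neg_sub]
      exact hn.trans_le (by linarith))
    rw [Vale.Agent.P133.R2.H474.cut_cut hδ] at h5
    exact (hI' _).1 h5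
  obtain ⟨n, hn1, hn2⟩ := ((key _ hfp hfp0 b₁ hpp hI1).and (key _ hfn hfn0 b₂ hnn hI2)).exists
  have hg : ev n η = s * s * ev n β' * (s * s) := by
    rw [hη, map_mul, map_mul, map_mul, hσ]
  have hgs : IsSelfAdjoint (ev n η) := by
    rw [IsSelfAdjoint, ← map_star, hηs.star_eq]
  have hgh : ev n η ∈ Vale.Agent.P133.R2.H474.her (s * s) := by
    rw [hg]
    exact Vale.Agent.P133.R2.H474.her_self _ _
  refine ⟨cfcₙ (fun t : ℝ => max t 0) (ev n η), cfcₙ (fun t : ℝ => max (-t) 0) (ev n η),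
    cfcₙ_nonneg fun t _ => le_max_right _ _, cfcₙ_nonneg fun t _ => le_max_right _ _, ?_,
    Vale.Agent.P133.R2.H474.her_cfc hgs hgh hfp hfp0,
    Vale.Agent.P133.R2.H474.her_cfc hgs hgh hfn hfn0, hn1, hn2⟩
  rw [← cfcₙ_mul (fun t : ℝ => max t 0) (fun t : ℝ => max (-t) 0) (ev n η) hfp.continuousOn hfp0
    hfn.continuousOn hfn0]
  have : (fun t : ℝ => max t 0 * max (-t) 0) = fun _ => (0 : ℝ) := by
    funext t
    rcases le_total t 0 with h | h
    · rw [max_eq_right h, zero_mul]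
    · rw [max_eq_right (by linarith : -t ≤ 0), mul_zero]
  rw [this, cfcₙ_const_zero]

end

end Vale.Agent.P133.R2.H354
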