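import Vale.Agent.P133.R2.H354.Elem

/-!
P133 (helper354): the C*-algebra generated by commuting copies.
-/

open scoped ComplexOrder

namespace Vale.Agent.P133.R2.H354

open Vale.Agent.P133 Vale.Agent.P133.H832

universe u

section

variable {Q : Type u} [NonUnitalCStarAlgebra Q]

/-- the C*-algebra generated by `S` -/
noncomputable def gen (S : Set Q) : NonUnitalStarSubalgebra ℂ Q :=
  (NonUnitalStarAlgebra.adjoin ℂ S).topologicalClosure

theorem gen_closed (S : Set Q) : IsClosed ((gen S : NonUnitalStarSubalgebra ℂ Q) : Set Q) :=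
  NonUnitalStarSubalgebra.isClosed_topologicalClosure _

theorem mem_gen {S : Set Q} {x : Q} (hx : x ∈ S) : x ∈ gen S :=
  NonUnitalStarSubalgebra.le_topologicalClosure _ (NonUnitalStarAlgebra.subset_adjoin ℂ S hx)

theorem gen_dense {S : Set Q} (hS : ∀ x ∈ S, star x ∈ S) {x : Q} (hx : x ∈ gen S) {ε : ℝ}
    (hε : 0 < ε) : ∃ y ∈ NonUnitalAlgebra.adjoin ℂ S, ‖x - y‖ < ε := by
  have h1 : x ∈ closure ((NonUnitalStarAlgebra.adjoin ℂ S : NonUnitalStarSubalgebra ℂ Q) : Set Q) :=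
    hx
  obtain ⟨y, hy, h2⟩ := Metric.mem_closure_iff.1 h1 ε hε
  refine ⟨y, ?_, by rwa [dist_eq_norm] at h2⟩
  have h3 : y ∈ (NonUnitalStarAlgebra.adjoin ℂ S).toNonUnitalSubalgebra := hy
  rw [NonUnitalStarAlgebra.adjoin_toNonUnitalSubalgebra] at h3
  have h4 : S ∪ star S = S := by
    refine Set.union_eq_left.2 fun x hx => ?_
    have := hS _ hx
    rwa [star_star] at this
  rwa [h4] at h3

end

section

variable {Q : Type u} [NonUnitalCStarAlgebra Q] [PartialOrder Q] [StarOrderedRing Q]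

theorem transfer {E : Type u} [NonUnitalCStarAlgebra E] [PartialOrder E] [StarOrderedRing E]
    (ι : E →⋆ₙₐ[ℂ] Q) {sE : E} (hsE : star sE = sE) {n : ℕ} {G' : ℕ → Set E} {D' : ℕ → ℕ → E}
    (hF : Fam n G' (sE * sE) D') {δ : ℝ} (hδ : 0 < δ) {s : Q} (hs : ι sE = s) :
    ∃ b₁ b₂ : Q, 0 ≤ b₁ ∧ 0 ≤ b₂ ∧ b₁ * b₂ = 0 ∧ (s * s) * b₁ = b₁ * (s * s) ∧
      (s * s) * b₂ = b₂ * (s * s) ∧
      InId ((s * s) * b₁ * (s * s)) (cfcₙ (fun t : ℝ => max (t - δ) 0) (s * s)) ∧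
      InId ((s * s) * b₂ * (s * s)) (cfcₙ (fun t : ℝ => max (t - δ) 0) (s * s)) := by
  subst hs
  have ha0 : (0 : E) ≤ sE * sE := by
    have := star_mul_self_nonneg sE
    rwa [hsE] at this
  obtain ⟨b₁, b₂, h1, h2, h12, hI1, hI2⟩ := hF.orth ha0 hδ
  have hpos : ∀ b : E, 0 ≤ b → 0 ≤ ι b := by
    intro b hb
    obtain ⟨r, rfl⟩ := CStarAlgebra.nonneg_iff_eq_star_mul_self.1 hb
    rw [map_mul, map_star]
    exact star_mul_self_nonneg _
  have hf0 : (fun t : ℝ => max (t - δ) 0) 0 = 0 := by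
    simp only [zero_sub]; exact max_eq_right (by linarith)
  have hcut : ι (cfcₙ (fun t : ℝ => max (t - δ) 0) (sE * sE)) =
      cfcₙ (fun t : ℝ => max (t - δ) 0) (ι sE * ι sE) := by
    rw [← map_mul]
    exact NonUnitalStarAlgHomClass.map_cfcₙ ι _ (sE * sE) (hf := by fun_prop) (hf₀ := hf0)
      (hφ := map_continuous ι) (ha := IsSelfAdjoint.of_nonneg ha0)
      (hφa := IsSelfAdjoint.of_nonneg (hpos _ ha0))
  have hII : ∀ b : E, InId (sE * sE * b * (sE * sE))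
      (cfcₙ (fun t : ℝ => max (t - δ) 0) (sE * sE)) →
      InId ((ι sE * ι sE) * ι b * (ι sE * ι sE))
        (cfcₙ (fun t : ℝ => max (t - δ) 0) (ι sE * ι sE)) := by
    intro b hb ε hε
    obtain ⟨m, r, t, h3⟩ := hb ε hε
    refine ⟨m, fun k => ι (r k), fun k => ι (t k), ?_⟩
    have h4 : ∑ k, ι (r k) * ((ι sE * ι sE) * ι b * (ι sE * ι sE)) * ι (t k) -
        cfcₙ (fun t : ℝ => max (t - δ) 0) (ι sE * ι sE) =
        ι (∑ k, r k * (sE * sE * b * (sE * sE)) * t k -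
          cfcₙ (fun t : ℝ => max (t - δ) 0) (sE * sE)) := by
      rw [map_sub, map_sum, hcut]
      simp only [map_mul]
    rw [h4]
    exact (NonUnitalStarAlgHom.norm_apply_le ι _).trans_lt h3
  refine ⟨ι b₁, ι b₂, hpos _ h1, hpos _ h2, ?_, ?_, ?_, hII b₁ hI1, hII b₂ hI2⟩
  · rw [← map_mul, h12, map_zero]
  · rw [← map_mul, ← map_mul, ← map_mul, hF.a_central b₁]
  · rw [← map_mul, ← map_mul, ← map_mul, hF.a_central b₂]

theorem orth_of_copies {s : Q} (hs : star s = s) {n : ℕ} {G : ℕ → Set Q}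
    (hsG : ∀ j, s ∈ G j) (hstar : ∀ j, ∀ x ∈ G j, star x ∈ G j)
    (hcomm : ∀ j l, j ≠ l → ∀ x ∈ G j, ∀ y ∈ G l, x * y = y * x) {D : ℕ → ℕ → Q}
    (hD : ∀ j i, D j i ∈ G j) (hDs : ∀ j i, star (D j i) = D j i)
    (hg : ∀ j, j < 2 ^ n → ∃ x q y : Fin (n + 1) → Q,
      (∀ i, x i ∈ G j ∧ q i ∈ G j ∧ y i ∈ G j) ∧
      (∑ i, x i * (D j i * q i - q i * D j i) * y i) * (s * s) = s * s) {δ : ℝ} (hδ : 0 < δ) :
    ∃ b₁ b₂ : Q, 0 ≤ b₁ ∧ 0 ≤ b₂ ∧ b₁ * b₂ = 0 ∧ (s * s) * b₁ = b₁ * (s * s) ∧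
      (s * s) * b₂ = b₂ * (s * s) ∧
      InId ((s * s) * b₁ * (s * s)) (cfcₙ (fun t : ℝ => max (t - δ) 0) (s * s)) ∧
      InId ((s * s) * b₂ * (s * s)) (cfcₙ (fun t : ℝ => max (t - δ) 0) (s * s)) := by
  set S : Set Q := (⋃ j, G j) ∪ {s * s} with hSdef
  have hSs : ∀ x ∈ S, star x ∈ S := by
    rintro x (hx | hx)
    · obtain ⟨j, hx⟩ := Set.mem_iUnion.1 hx
      exact Or.inl (Set.mem_iUnion.2 ⟨j, hstar j x hx⟩)
    · rw [Set.mem_singleton_iff.1 hx, star_mul, hs]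
      exact Or.inr rfl
  have hGS : ∀ j, ∀ x ∈ G j, x ∈ S := fun j x hx => Or.inl (Set.mem_iUnion.2 ⟨j, hx⟩)
  have haS : s * s ∈ S := Or.inr rfl
  let E : NonUnitalStarSubalgebra ℂ Q := gen S
  let i1 : NonUnitalCStarAlgebra E :=
    NonUnitalStarSubalgebra.nonUnitalCStarAlgebra E (h_closed := gen_closed S)
  let ι : E →⋆ₙₐ[ℂ] Q := NonUnitalStarSubalgebraClass.subtype E
  have hι : ∀ x : E, ι x = (x : Q) := fun _ => rfl
  have hinj : ∀ x y : E, ι x = ι y → x = y := fun x y h => Subtype.ext h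
  let sE : E := ⟨s, mem_gen (hGS 0 s (hsG 0))⟩
  have hsE : star sE = sE := Subtype.ext hs
  let G' : ℕ → Set E := fun j => {x : E | (x : Q) ∈ G j}
  let D' : ℕ → ℕ → E := fun j i => ⟨D j i, mem_gen (hGS j _ (hD j i))⟩
  have hxs : ∀ j, ∀ x ∈ G j, x * s = s * x := fun j x hx =>
    hcomm j (j + 1) (by omega) x hx s (hsG _)
  have hF : Fam n G' (sE * sE) D' := by
    refine ⟨?_, ?_, ?_, ?_, ?_, ?_⟩
    · intro j l hjl x hx y hy
      exact Subtype.ext (hcomm j l hjl _ hx _ hy)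
    · intro j x hx
      refine Subtype.ext ?_
      change (x : Q) * (s * s) = (s * s) * (x : Q)
      rw [← mul_assoc, hxs j _ hx, mul_assoc, hxs j _ hx, mul_assoc]
    · -- density
      have key : ∀ y ∈ NonUnitalAlgebra.adjoin ℂ S,
          ∃ t ∈ NonUnitalAlgebra.adjoin ℂ ((⋃ j, G' j) ∪ {sE * sE}), ι t = y := by
        intro y hy
        induction hy using NonUnitalAlgebra.adjoin_induction with
        | mem y hy =>
          refine ⟨⟨y, mem_gen hy⟩, NonUnitalAlgebra.subset_adjoin ℂ ?_, rfl⟩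
          rcases hy with hy | hy
          · obtain ⟨j, hy⟩ := Set.mem_iUnion.1 hy
            exact Or.inl (Set.mem_iUnion.2 ⟨j, hy⟩)
          · exact Or.inr (Subtype.ext hy)
        | add x y _ _ hx hy =>
          obtain ⟨u, hu, rfl⟩ := hx
          obtain ⟨v, hv, rfl⟩ := hy
          exact ⟨u + v, add_mem hu hv, map_add ι u v⟩
        | zero => exact ⟨0, zero_mem _, map_zero ι⟩
        | mul x y _ _ hx hy =>
          obtain ⟨u, hu, rfl⟩ := hx
          obtain ⟨v, hv, rfl⟩ := hy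
          exact ⟨u * v, mul_mem hu hv, map_mul ι u v⟩
        | smul r x _ hx =>
          obtain ⟨u, hu, rfl⟩ := hx
          exact ⟨r • u, SMulMemClass.smul_mem r hu, map_smul ι r u⟩
      rw [← NonUnitalAlgebra.adjoin_eq_span]
      refine Metric.dense_iff.2 fun x ε hε => ?_
      obtain ⟨y, hy, hxy⟩ := gen_dense hSs x.2 hε
      obtain ⟨t, ht, rfl⟩ := key y hy
      refine ⟨t, ?_, ht⟩
      rw [Metric.mem_ball, dist_comm, dist_eq_norm]
      exact hxy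
    · intro j i; exact hD j i
    · intro j i; exact Subtype.ext (hDs j i)
    · intro j hj
      obtain ⟨x, q, y, hm, h1⟩ := hg j hj
      refine ⟨fun i => ⟨x i, mem_gen (hGS j _ (hm i).1)⟩, fun i => ⟨q i, mem_gen (hGS j _ (hm i).2.1)⟩,
        fun i => ⟨y i, mem_gen (hGS j _ (hm i).2.2)⟩, fun i => (hm i).2.1, ?_⟩
      apply hinj
      rw [map_mul, map_sum]
      exact h1
  exact @transfer Q _ _ _ E i1 (CStarAlgebra.spectralOrder E) (CStarAlgebra.spectralOrderedRing E)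
    ι sE hsE n G' D' hF δ hδ s rfl

end

end Vale.Agent.P133.R2.H354
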